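import Mathlib

/-!
Convexity of the output entropy of pure states with given population.
-/

set_option autoImplicit false

namespace Crest.Agent.R341

open Set

/-- Entropy as a function of the concurrence. -/
noncomputable def Ec (C : ℝ) : ℝ := Real.binEntropy ((1 + Real.sqrt (1 - C ^ 2)) / 2)

/-- The derivative of `Ec` in terms of `r = √(1 - C²)`. -/
noncomputable def psi (r : ℝ) : ℝ :=
  (Real.log (1 + r) - Real.log (1 - r)) / 2 * (Real.sqrt (1 - r ^ 2) / r)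

theorem hasDerivAt_sqrt_one_sub_sq {r : ℝ} (h0 : 0 < r) (h1 : r < 1) :
    HasDerivAt (fun r => Real.sqrt (1 - r ^ 2)) (-r / Real.sqrt (1 - r ^ 2)) r := by
  have hp : 0 < 1 - r ^ 2 := by nlinarith
  have := ((hasDerivAt_pow 2 r).const_sub 1).sqrt hp.ne'
  convert this using 1
  have := Real.sqrt_pos.2 hp
  field_simp
  norm_num [mul_comm]

theorem le_artanh' {r : ℝ} (h0 : 0 ≤ r) (h1 : r < 1) :
    r ≤ (Real.log (1 + r) - Real.log (1 - r)) / 2 := by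
  have h2 : 0 < 1 - r := by linarith
  have := Real.le_log_one_add_of_nonneg (x := 2 * r / (1 - r)) (by positivity)
  have e1 : 1 + 2 * r / (1 - r) = (1 + r) / (1 - r) := by field_simp; ring
  have e2 : 2 * (2 * r / (1 - r)) / (2 * r / (1 - r) + 2) = 2 * r := by field_simp; ring
  rw [e1, e2, Real.log_div (by linarith) h2.ne'] at this
  linarith

theorem psi_antitoneOn : AntitoneOn psi (Ioo 0 1) := by
  have hd : ∀ r ∈ Ioo (0 : ℝ) 1, HasDerivAt psi
      ((r - (Real.log (1 + r) - Real.log (1 - r)) / 2) / (Real.sqrt (1 - r ^ 2) * r ^ 2)) r := by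
    intro r hr
    have hp : 0 < 1 - r ^ 2 := by nlinarith [hr.1, hr.2]
    have hs := Real.sqrt_pos.2 hp
    have hss := Real.sq_sqrt hp.le
    have h1 : 0 < 1 + r := by linarith [hr.1]
    have h2 : 0 < 1 - r := by linarith [hr.2]
    have hr0 := hr.1
    have d1 := ((hasDerivAt_id r).const_add 1).log h1.ne'
    have d2 := ((hasDerivAt_id r).const_sub 1).log h2.ne'
    have d3 := (hasDerivAt_sqrt_one_sub_sq hr.1 hr.2).div (hasDerivAt_id r) hr0.ne'
    have := ((d1.sub d2).div_const 2).mul d3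
    refine HasDerivAt.congr_deriv this ?_
    symm
    simp only [id, Pi.div_apply, Pi.sub_apply]
    set s := Real.sqrt (1 - r ^ 2)
    set L := Real.log (1 + r) - Real.log (1 - r)
    have e : (1 + r) * (1 - r) = s ^ 2 := by rw [hss]; ring
    have e2 : 1 / (1 + r) - -1 / (1 - r) = 2 / s ^ 2 := by
      rw [← e]; field_simp; ring
    rw [e2]
    field_simp
    rw [hss]
    ring
  refine antitoneOn_of_hasDerivWithinAt_nonpos (convex_Ioo 0 1)
    (fun r hr => (hd r hr).continuousAt.continuousWithinAt)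
    (f' := fun r => (r - (Real.log (1 + r) - Real.log (1 - r)) / 2) /
      (Real.sqrt (1 - r ^ 2) * r ^ 2)) ?_ ?_
  · rw [interior_Ioo]
    exact fun r hr => (hd r hr).hasDerivWithinAt
  · rw [interior_Ioo]
    intro r hr
    exact div_nonpos_of_nonpos_of_nonneg (by linarith [le_artanh' hr.1.le hr.2]) (by positivity)

theorem sqrt_mem {C : ℝ} (hC : C ∈ Ioo (0 : ℝ) 1) : Real.sqrt (1 - C ^ 2) ∈ Ioo (0 : ℝ) 1 := by
  refine ⟨Real.sqrt_pos.2 (by nlinarith [hC.1, hC.2]), ?_⟩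
  rw [Real.sqrt_lt' one_pos]
  nlinarith [hC.1, hC.2]

theorem hasDerivAt_Ec {C : ℝ} (hC : C ∈ Ioo (0 : ℝ) 1) :
    HasDerivAt Ec (psi (Real.sqrt (1 - C ^ 2))) C := by
  have hr := sqrt_mem hC
  have d1 := ((hasDerivAt_sqrt_one_sub_sq hC.1 hC.2).const_add 1).div_const 2
  have d2 := Real.hasDerivAt_binEntropy (p := (1 + Real.sqrt (1 - C ^ 2)) / 2)
    (by linarith [hr.1]) (by linarith [hr.2])
  have := d2.comp C d1
  refine HasDerivAt.congr_deriv this ?_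
  symm
  unfold psi
  have hp : 0 ≤ 1 - C ^ 2 := by nlinarith [hC.1, hC.2]
  have e1 : Real.sqrt (1 - Real.sqrt (1 - C ^ 2) ^ 2) = C := by
    rw [Real.sq_sqrt hp, sub_sub_cancel, Real.sqrt_sq hC.1.le]
  rw [e1]
  set r := Real.sqrt (1 - C ^ 2)
  have e2 : 1 - (1 + r) / 2 = (1 - r) / 2 := by ring
  rw [e2, Real.log_div (by linarith [hr.2]) two_ne_zero, Real.log_div (by linarith [hr.1]) two_ne_zero]
  ring

theorem Ec_convexOn : ConvexOn ℝ (Icc 0 1) Ec := by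
  refine MonotoneOn.convexOn_of_deriv (convex_Icc 0 1) ?_ ?_ ?_
  · unfold Ec; fun_prop
  · rw [interior_Icc]
    exact fun C hC => (hasDerivAt_Ec hC).differentiableAt.differentiableWithinAt
  · rw [interior_Icc]
    intro C hC C' hC' h
    rw [(hasDerivAt_Ec hC).deriv, (hasDerivAt_Ec hC').deriv]
    refine psi_antitoneOn (sqrt_mem hC') (sqrt_mem hC) (Real.sqrt_le_sqrt ?_)
    nlinarith [hC.1]

theorem Ec_monotoneOn : MonotoneOn Ec (Icc 0 1) := by
  intro C hC C' hC' h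
  unfold Ec
  have hm : ∀ C : ℝ, (1 + Real.sqrt (1 - C ^ 2)) / 2 ∈ Icc (2⁻¹ : ℝ) 1 := by
    intro C
    have h1 := Real.sqrt_nonneg (1 - C ^ 2)
    have h2 : Real.sqrt (1 - C ^ 2) ≤ 1 := Real.sqrt_le_one.2 (by nlinarith)
    constructor <;> linarith
  refine Real.binEntropy_strictAntiOn.antitoneOn (hm C') (hm C) ?_
  have : Real.sqrt (1 - C' ^ 2) ≤ Real.sqrt (1 - C ^ 2) := Real.sqrt_le_sqrt (by nlinarith [hC.1])
  linarith

/-- The determinant of the output of a pure state. -/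
def vG (γ ν p : ℝ) : ℝ := γ * ν * (1 - ν) + γ * (1 - γ) * (p - ν) ^ 2

/-- The output entropy of a pure state with excited population `p`. -/
noncomputable def fG (γ ν p : ℝ) : ℝ := Real.binEntropy ((1 + Real.sqrt (1 - 4 * vG γ ν p)) / 2)

theorem vG_nonneg {γ ν : ℝ} (hγ : γ ∈ Icc (0 : ℝ) 1) (hν : ν ∈ Icc (0 : ℝ) 1) (p : ℝ) :
    0 ≤ vG γ ν p := by
  unfold vG
  have h1 := hγ.1
  have h2 := hν.1
  have h3 : 0 ≤ 1 - γ := by linarith [hγ.2]
  have h4 : 0 ≤ 1 - ν := by linarith [hν.2]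
  positivity

theorem vG_le {γ : ℝ} (hγ : γ ∈ Icc (0 : ℝ) 1) (ν : ℝ) {p : ℝ} (hp : p ∈ Icc (0 : ℝ) 1) :
    4 * vG γ ν p ≤ 1 := by
  have e : 1 - 4 * vG γ ν p = (1 - 2 * ((1 - γ) * p + γ * ν)) ^ 2 + 4 * ((1 - γ) * (p * (1 - p))) := by
    unfold vG; ring
  have h3 : 0 ≤ 1 - γ := by linarith [hγ.2]
  have h4 : 0 ≤ 1 - p := by linarith [hp.2]
  have h5 := hp.1
  have : 0 ≤ (1 - 2 * ((1 - γ) * p + γ * ν)) ^ 2 + 4 * ((1 - γ) * (p * (1 - p))) := by positivity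
  linarith

theorem fG_convexOn {γ ν : ℝ} (hγ : γ ∈ Icc (0 : ℝ) 1) (hν : ν ∈ Icc (0 : ℝ) 1) :
    ConvexOn ℝ (Icc 0 1) (fG γ ν) := by
  have hα : 0 ≤ γ * ν * (1 - ν) := by
    have := hγ.1; have := hν.1; have : 0 ≤ 1 - ν := by linarith [hν.2]
    positivity
  have hβ : 0 ≤ γ * (1 - γ) := by
    have := hγ.1; have : 0 ≤ 1 - γ := by linarith [hγ.2]
    positivity
  let z : ℝ → ℂ := fun p => ⟨Real.sqrt (γ * ν * (1 - ν)), Real.sqrt (γ * (1 - γ)) * (p - ν)⟩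
  have hz : ∀ p, ‖z p‖ ^ 2 = vG γ ν p := by
    intro p
    rw [Complex.sq_norm, Complex.normSq_apply]
    simp only [z, vG]
    rw [Real.mul_self_sqrt hα, mul_mul_mul_comm, Real.mul_self_sqrt hβ]
    ring
  have hf : ∀ p, fG γ ν p = Ec (2 * ‖z p‖) := by
    intro p
    unfold fG Ec
    rw [mul_pow, hz]
    norm_num
  have hmem : ∀ p ∈ Icc (0 : ℝ) 1, 2 * ‖z p‖ ∈ Icc (0 : ℝ) 1 := by
    intro p hp
    refine ⟨by positivity, ?_⟩
    have h1 := vG_le hγ ν hp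
    rw [← hz] at h1
    nlinarith [norm_nonneg (z p)]
  refine ⟨convex_Icc 0 1, fun p hp p' hp' a b ha hb hab => ?_⟩
  have hmix := convex_Icc (0 : ℝ) 1 hp hp' ha hb hab
  rw [hf, hf, hf]
  refine le_trans ?_ (Ec_convexOn.2 (hmem p hp) (hmem p' hp') ha hb hab)
  refine Ec_monotoneOn (hmem _ hmix) (convex_Icc (0 : ℝ) 1 (hmem p hp) (hmem p' hp') ha hb hab) ?_
  have e : z (a • p + b • p') = (a : ℂ) * z p + (b : ℂ) * z p' := by
    have hb' : b = 1 - a := by linarith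
    subst hb'
    apply Complex.ext <;> simp [z] <;> ring
  rw [e]
  have h1 := norm_add_le ((a : ℂ) * z p) ((b : ℂ) * z p')
  rw [norm_mul, norm_mul, Complex.norm_real, Complex.norm_real, Real.norm_of_nonneg ha,
    Real.norm_of_nonneg hb] at h1
  simp only [smul_eq_mul]
  linarith

/-- The two eigenvalues of a qubit state with determinant `vG`. -/
theorem fG_eig {γ ν : ℝ} (hγ : γ ∈ Icc (0 : ℝ) 1) (hν : ν ∈ Icc (0 : ℝ) 1) {p : ℝ}
    (hp : p ∈ Icc (0 : ℝ) 1) : ∃ μ₁ μ₂ : ℝ, 0 ≤ μ₁ ∧ 0 ≤ μ₂ ∧ μ₁ + μ₂ = 1 ∧ μ₁ * μ₂ = vG γ ν p ∧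
      μ₁ * Real.log μ₁ + μ₂ * Real.log μ₂ = - fG γ ν p := by
  have h1 := vG_le hγ ν hp
  have h2 := vG_nonneg hγ hν p
  have h3 := Real.sqrt_nonneg (1 - 4 * vG γ ν p)
  have h4 : Real.sqrt (1 - 4 * vG γ ν p) ≤ 1 := Real.sqrt_le_one.2 (by linarith)
  have h5 := Real.sq_sqrt (show 0 ≤ 1 - 4 * vG γ ν p by linarith)
  refine ⟨(1 + Real.sqrt (1 - 4 * vG γ ν p)) / 2, 1 - (1 + Real.sqrt (1 - 4 * vG γ ν p)) / 2,
    by linarith, by linarith, by ring, by nlinarith, ?_⟩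
  unfold fG
  rw [Real.binEntropy_eq_negMulLog_add_negMulLog_one_sub]
  simp only [Real.negMulLog]
  ring

end Crest.Agent.R341
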