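import Crest.Agent.R341.Gad

/-!
Ensembles through the product of the amplitude-damping channel with an arbitrary channel.
-/

set_option autoImplicit false
set_option linter.unusedSectionVars false

namespace Crest.Agent.R341

open Set Matrix Crest.Agent.Lib.QEnt Crest.Quantum Crest.MathPhysics.AmpDamp
open scoped ComplexOrder Kronecker

variable {d e : Type*} [Fintype d] [Fintype e] [DecidableEq d] [DecidableEq e]

theorem chan_blockwise {Ψ : Matrix d d ℂ → Matrix e e ℂ} (hΨ : IsChannel Ψ) {k : Type*}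
    [Fintype k] {M : Matrix (k × d) (k × d) ℂ} (hM : M.PosSemidef) :
    (blockwise Ψ M).PosSemidef := by
  let φ := Fintype.equivFin k
  have h1 := hΨ.2.1 _ _ (hM.submatrix (Prod.map φ.symm id))
  have h2 := h1.submatrix (Prod.map φ id)
  convert h2 using 1
  ext ⟨s, i⟩ ⟨t, j⟩
  simp [blockwise, block]

theorem chan_psd {Ψ : Matrix d d ℂ → Matrix e e ℂ} (hΨ : IsChannel Ψ)
    {M : Matrix d d ℂ} (hM : M.PosSemidef) : (Ψ M).PosSemidef := by
  have h1 := chan_blockwise hΨ (k := Unit) (hM.submatrix Prod.snd)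
  exact h1.submatrix (fun i => ((), i))

theorem chan_density {Ψ : Matrix d d ℂ → Matrix e e ℂ} (hΨ : IsChannel Ψ)
    {M : Matrix d d ℂ} (hM : IsDensity M) : IsDensity (Ψ M) :=
  ⟨chan_psd hΨ hM.1, by rw [hΨ.2.2, hM.2]⟩

/-- Holevo information of an ensemble indexed by any finite type. -/
noncomputable def hol {ι : Type*} [Fintype ι] (Φ : Matrix d d ℂ → Matrix e e ℂ) (q : ι → ℝ)
    (ρ : ι → Matrix d d ℂ) : ℝ :=
  vnEntropy (∑ a, (q a : ℂ) • Φ (ρ a)) - ∑ a, q a * vnEntropy (Φ (ρ a))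

theorem exists_fin {ι : Type*} [Fintype ι] (Φ : Matrix d d ℂ → Matrix e e ℂ) (q : ι → ℝ)
    (ρ : ι → Matrix d d ℂ) (h0 : ∀ a, 0 ≤ q a) (h1 : ∑ a, q a = 1) (h2 : ∀ a, IsDensity (ρ a)) :
    ∃ (m : ℕ) (q' : Fin m → ℝ) (ρ' : Fin m → Matrix d d ℂ), IsEnsemble q' ρ' ∧
      holevoInfo Φ q' ρ' = hol Φ q ρ := by
  let φ := (Fintype.equivFin ι).symm
  refine ⟨_, fun a => q (φ a), fun a => ρ (φ a), ⟨fun a => h0 _, ?_, fun a => h2 _⟩, ?_⟩
  · rw [φ.sum_comp q, h1]
  · unfold holevoInfo hol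
    rw [φ.sum_comp (fun a => (q a : ℂ) • Φ (ρ a)), φ.sum_comp (fun a => q a * vnEntropy (Φ (ρ a)))]

theorem psd_trace {A : Matrix d d ℂ} (hA : A.PosSemidef) : A.trace = (A.trace.re : ℂ) := by
  have := Complex.nonneg_iff.1 hA.trace_nonneg
  apply Complex.ext <;> simp [this.2.symm]

theorem exists_normalised [Nonempty d] {A : Matrix d d ℂ} (hA : A.PosSemidef) :
    ∃ σ : Matrix d d ℂ, IsDensity σ ∧ A = (A.trace.re : ℂ) • σ := by
  have h0 : 0 ≤ A.trace.re := (Complex.nonneg_iff.1 hA.trace_nonneg).1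
  rcases h0.eq_or_lt with h | h
  · have hA0 : A = 0 := by
      rw [← hA.trace_eq_zero_iff, psd_trace hA, ← h]; simp
    have hc : (0 : ℝ) < Fintype.card d := by exact_mod_cast Fintype.card_pos
    refine ⟨(((Fintype.card d : ℝ)⁻¹ : ℝ) : ℂ) • 1, ⟨psd_smul PosSemidef.one (by positivity), ?_⟩,
      by rw [← h, hA0]; simp⟩
    rw [trace_smul, trace_one, smul_eq_mul]
    have : (Fintype.card d : ℂ) ≠ 0 := by exact_mod_cast Fintype.card_ne_zero
    push_cast
    field_simp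
  · refine ⟨((A.trace.re⁻¹ : ℝ) : ℂ) • A, ⟨psd_smul hA (by positivity), ?_⟩, ?_⟩
    · rw [trace_smul, smul_eq_mul]
      nth_rewrite 2 [psd_trace hA]
      rw [← Complex.ofReal_mul, inv_mul_cancel₀ h.ne', Complex.ofReal_one]
    · rw [smul_smul, ← Complex.ofReal_mul, mul_inv_cancel₀ h.ne', Complex.ofReal_one, one_smul]

theorem R_density {A : Matrix d d ℂ} (hA : IsDensity A) : R A = - vnEntropy A := by
  unfold R
  rw [vnEntropy_eq hA.1.isHermitian, hA.2]
  simp

theorem block_psd {M : Matrix (Bool × d) (Bool × d) ℂ} (hM : M.PosSemidef) (s : Bool) :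
    (block M s s).PosSemidef := hM.submatrix (fun i => (s, i))

theorem trace_blocks (M : Matrix (Bool × d) (Bool × d) ℂ) :
    M.trace = (block M false false).trace + (block M true true).trace := by
  simp [Matrix.trace, Fintype.sum_prod_type, block, add_comm]

/-- Lower bound for the output entropy of one state. -/
theorem out_entropy {γ ν : ℝ} (hγ : γ ∈ Icc (0 : ℝ) 1) (hν : ν ∈ Icc (0 : ℝ) 1)
    {Ψ : Matrix d d ℂ → Matrix e e ℂ} (hΨ : IsChannel Ψ) {ρ : Matrix (Bool × d) (Bool × d) ℂ}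
    (hρ : IsDensity ρ) {σ : Bool → Matrix d d ℂ} (hσ : ∀ j, IsDensity (σ j))
    (hσ' : ∀ j, block ρ j j = ((block ρ j j).trace.re : ℂ) • σ j) :
    (qubitTensor (gadMap γ ν) Ψ ρ).PosSemidef ∧
      fG γ ν (block ρ true true).trace.re + ∑ j, (block ρ j j).trace.re * vnEntropy (Ψ (σ j)) ≤
        vnEntropy (qubitTensor (gadMap γ ν) Ψ ρ) := by
  have h1 := (chan_blockwise hΨ hρ.1).submatrix (Equiv.boolProdEquivSum e).symm
  rw [submatrix_blocks] at h1
  change (fromBlocks (Ψ (block ρ false false)) (Ψ (block ρ false true)) (Ψ (block ρ true false))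
    (Ψ (block ρ true true))).PosSemidef at h1
  have htr : (Ψ (block ρ false false)).trace.re + (Ψ (block ρ true true)).trace.re = 1 := by
    rw [hΨ.2.2, hΨ.2.2, ← Complex.add_re, ← trace_blocks, hρ.2, Complex.one_re]
  obtain ⟨h2, h3⟩ := gad_key hγ hν h1 htr
  rw [← qubitTensor_gad_blocks] at h2 h3
  rw [N_submatrix] at h3
  have h4 : (qubitTensor (gadMap γ ν) Ψ ρ).PosSemidef := (posSemidef_submatrix_equiv _).1 h2
  refine ⟨h4, ?_⟩
  have h5 : ∀ j, R (Ψ (block ρ j j)) = - ((block ρ j j).trace.re * vnEntropy (Ψ (σ j))) := by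
    intro j
    have hd := chan_density hΨ (hσ j)
    conv_lhs => rw [hσ' j, hΨ.1.map_smul, R_smul hd.1.isHermitian, R_density hd]
    ring
  rw [vnEntropy_eq h4.isHermitian, Fintype.sum_bool]
  rw [h5, h5, hΨ.2.2] at h3
  linarith

theorem block_sum {ι : Type*} [Fintype ι] (c : ι → ℂ) (M : ι → Matrix (Bool × e) (Bool × e) ℂ)
    (s t : Bool) : block (∑ a, c a • M a) s t = ∑ a, c a • block (M a) s t := by
  ext i j
  simp [block, Matrix.sum_apply]

theorem block_out_false (γ ν : ℝ) (Ψ : Matrix d d ℂ → Matrix e e ℂ)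
    (M : Matrix (Bool × d) (Bool × d) ℂ) :
    block (qubitTensor (gadMap γ ν) Ψ M) false false =
      ((1 - γ * ν : ℝ) : ℂ) • Ψ (block M false false) +
        ((γ * (1 - ν) : ℝ) : ℂ) • Ψ (block M true true) := by
  have := qubitTensor_gad_blocks γ ν Ψ M
  rw [submatrix_blocks] at this
  exact (fromBlocks_inj.1 this).1

theorem block_out_true (γ ν : ℝ) (Ψ : Matrix d d ℂ → Matrix e e ℂ)
    (M : Matrix (Bool × d) (Bool × d) ℂ) :
    block (qubitTensor (gadMap γ ν) Ψ M) true true =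
      ((γ * ν : ℝ) : ℂ) • Ψ (block M false false) +
        ((1 - γ + γ * ν : ℝ) : ℂ) • Ψ (block M true true) := by
  have := qubitTensor_gad_blocks γ ν Ψ M
  rw [submatrix_blocks] at this
  exact (fromBlocks_inj.1 this).2.2.2

theorem gadRate_eq (γ ν p : ℝ) :
    gadRate γ ν p = Real.binEntropy ((1 - γ) * p + γ * ν) - fG γ ν p := rfl

/-- Upper bound for the Holevo information through the product channel. -/
theorem holevo_upper [Nonempty d] {γ ν : ℝ} (hγ : γ ∈ Icc (0 : ℝ) 1) (hν : ν ∈ Icc (0 : ℝ) 1)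
    {Ψ : Matrix d d ℂ → Matrix e e ℂ} (hΨ : IsChannel Ψ) {m : ℕ} {q : Fin m → ℝ}
    {ρ : Fin m → Matrix (Bool × d) (Bool × d) ℂ} (hE : IsEnsemble q ρ) :
    ∃ p ∈ Icc (0 : ℝ) 1, ∃ (m₂ : ℕ) (q₂ : Fin m₂ → ℝ) (ρ₂ : Fin m₂ → Matrix d d ℂ),
      IsEnsemble q₂ ρ₂ ∧
        holevoInfo (qubitTensor (gadMap γ ν) Ψ) q ρ ≤ gadRate γ ν p + holevoInfo Ψ q₂ ρ₂ := by
  obtain ⟨hq0, hq1, hρ⟩ := hE
  choose σ hσ hσ' using fun (a : Fin m) (j : Bool) => exists_normalised (block_psd (hρ a).1 j)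
  set t : Fin m → Bool → ℝ := fun a j => (block (ρ a) j j).trace.re with ht
  have ht0 : ∀ a j, 0 ≤ t a j := fun a j =>
    (Complex.nonneg_iff.1 (block_psd (hρ a).1 j).trace_nonneg).1
  have ht1 : ∀ a, t a false + t a true = 1 := fun a => by
    simp only [ht]
    rw [← Complex.add_re, ← trace_blocks, (hρ a).2, Complex.one_re]
  have htm : ∀ a, t a true ∈ Icc (0 : ℝ) 1 := fun a =>
    ⟨ht0 a true, by linarith [ht1 a, ht0 a false]⟩
  obtain ⟨m₂, q₂, ρ₂, hE₂, hh⟩ := exists_fin Ψ (fun x : Fin m × Bool => q x.1 * t x.1 x.2)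
    (fun x => σ x.1 x.2) (fun x => mul_nonneg (hq0 _) (ht0 _ _))
    (by
      rw [Fintype.sum_prod_type, ← hq1]
      refine Finset.sum_congr rfl fun a _ => ?_
      rw [Fintype.sum_bool, ← mul_add, add_comm, ht1, mul_one])
    (fun x => hσ _ _)
  set p := ∑ a, q a * t a true with hp
  have hpm : p ∈ Icc (0 : ℝ) 1 := by
    have := (convex_Icc (0 : ℝ) 1).sum_mem (t := Finset.univ) (w := q) (z := fun a => t a true)
      (fun a _ => hq0 a) hq1 (fun a _ => htm a)
    simpa [smul_eq_mul] using this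
  refine ⟨p, hpm, m₂, q₂, ρ₂, hE₂, ?_⟩
  rw [hh, gadRate_eq]
  unfold holevoInfo hol
  have hout := fun a => out_entropy hγ hν hΨ (hρ a) (hσ a) (hσ' a)
  -- the average output
  set M := ∑ a, (q a : ℂ) • qubitTensor (gadMap γ ν) Ψ (ρ a) with hM
  have hMp : M.PosSemidef := posSemidef_sum _ fun a _ => psd_smul (hout a).1 (hq0 a)
  have hsub := hMp.submatrix (Equiv.boolProdEquivSum e).symm
  rw [submatrix_blocks] at hsub
  have h1 := N_fromBlocks_ge hsub
  rw [← submatrix_blocks, N_submatrix] at h1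
  have hΨb : ∀ a j, Ψ (block (ρ a) j j) = (t a j : ℂ) • Ψ (σ a j) := fun a j => by
    conv_lhs => rw [hσ' a j, hΨ.1.map_smul]
  have hsum : block M false false + block M true true =
      ∑ x : Fin m × Bool, ((q x.1 * t x.1 x.2 : ℝ) : ℂ) • Ψ (σ x.1 x.2) := by
    rw [hM, block_sum, block_sum, ← Finset.sum_add_distrib, Fintype.sum_prod_type]
    refine Finset.sum_congr rfl fun a _ => ?_
    rw [block_out_false, block_out_true, Fintype.sum_bool, hΨb, hΨb]
    push_cast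
    module
  have htrΨ : ∀ a j, (Ψ (block (ρ a) j j)).trace.re = t a j := fun a j => by rw [hΨ.2.2]
  have hβ : (block M true true).trace.re = (1 - γ) * p + γ * ν := by
    rw [hM, block_sum, trace_sum, Complex.re_sum, hp, Finset.mul_sum]
    have hγν : γ * ν = ∑ a, γ * ν * q a := by rw [← Finset.mul_sum, hq1, mul_one]
    conv_rhs => rw [hγν, ← Finset.sum_add_distrib]
    refine Finset.sum_congr rfl fun a _ => ?_
    rw [trace_smul_re, block_out_true, trace_add, Complex.add_re, trace_smul_re, trace_smul_re,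
      htrΨ, htrΨ, show t a false = 1 - t a true by linarith [ht1 a]]
    ring
  have hα : (block M false false).trace.re = 1 - ((1 - γ) * p + γ * ν) := by
    have : (block M false false).trace.re + (block M true true).trace.re = 1 := by
      rw [← Complex.add_re, ← trace_add, hsum, trace_sum, Complex.re_sum, Fintype.sum_prod_type,
        ← hq1]
      refine Finset.sum_congr rfl fun a _ => ?_
      simp only [trace_smul_re, (chan_density hΨ (hσ a _)).2, Complex.one_re, mul_one]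
      rw [Fintype.sum_bool, ← mul_add, add_comm, ht1, mul_one]
    linarith
  have hP : (block M false false + block M true true).IsHermitian :=
    ((block_psd hMp false).add (block_psd hMp true)).isHermitian
  rw [← hsum, vnEntropy_eq hMp.isHermitian, vnEntropy_eq hP]
  rw [hα, hβ, sub_add_cancel, Real.log_one] at h1
  rw [Real.binEntropy_eq_negMulLog_add_negMulLog_one_sub]
  simp only [Real.negMulLog]
  have h2 : fG γ ν p ≤ ∑ a, q a * fG γ ν (t a true) := by
    have := (fG_convexOn hγ hν).map_sum_le (t := Finset.univ) (w := q) (p := fun a => t a true)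
      (fun a _ => hq0 a) hq1 (fun a _ => htm a)
    simpa [smul_eq_mul] using this
  have h3 : ∑ a, q a * fG γ ν (t a true) +
      ∑ x : Fin m × Bool, q x.1 * t x.1 x.2 * vnEntropy (Ψ (σ x.1 x.2)) ≤
      ∑ a, q a * vnEntropy (qubitTensor (gadMap γ ν) Ψ (ρ a)) := by
    rw [Fintype.sum_prod_type, ← Finset.sum_add_distrib]
    refine Finset.sum_le_sum fun a _ => ?_
    have := mul_le_mul_of_nonneg_left (hout a).2 (hq0 a)
    rw [mul_add, Finset.mul_sum] at this
    simpa only [mul_assoc] using this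
  linarith

theorem det_bool (A : Matrix Bool Bool ℂ) :
    A.det = A false false * A true true - A false true * A true false := by
  rw [← Matrix.det_submatrix_equiv_self finTwoEquiv, det_fin_two]
  rfl

theorem trace_bool (A : Matrix Bool Bool ℂ) : A.trace = A false false + A true true := by
  simp [Matrix.trace, add_comm]

theorem gadMap_isHermitian (γ ν : ℝ) {A : Matrix Bool Bool ℂ} (hA : A.IsHermitian) :
    (gadMap γ ν A).IsHermitian := by
  have h : ∀ s t, star (A s t) = A t s := fun s t => hA.apply t s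
  ext s t
  cases s <;> cases t <;> simp [gadMap, conjTranspose_apply, -Complex.star_def, h]

theorem gadMap_trace (γ ν : ℝ) (A : Matrix Bool Bool ℂ) : (gadMap γ ν A).trace = A.trace := by
  rw [trace_bool, trace_bool]
  simp [gadMap]
  ring

/-- The pure state with excited population `p` and a sign. -/
noncomputable def pureSt (p : ℝ) (s : Bool) : Matrix Bool Bool ℂ :=
  let v : Matrix Bool Unit ℂ := Matrix.of fun i _ =>
    if i then (((if s then 1 else -1) * Real.sqrt p : ℝ) : ℂ) else (Real.sqrt (1 - p) : ℂ)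
  v * vᴴ

theorem pureSt_apply {p : ℝ} (hp : p ∈ Icc (0 : ℝ) 1) (s : Bool) :
    pureSt p s false false = ((1 - p : ℝ) : ℂ) ∧ pureSt p s true true = (p : ℂ) ∧
    pureSt p s false true = (((if s then 1 else -1) * (Real.sqrt p * Real.sqrt (1 - p)) : ℝ) : ℂ) ∧
    pureSt p s true false =
      (((if s then 1 else -1) * (Real.sqrt p * Real.sqrt (1 - p)) : ℝ) : ℂ) := by
  have h1 := Real.mul_self_sqrt hp.1
  have h2 := Real.mul_self_sqrt (show 0 ≤ 1 - p by linarith [hp.2])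
  simp only [pureSt, Matrix.mul_apply, conjTranspose_apply, Matrix.of_apply, Finset.univ_unique,
    Finset.sum_singleton, if_true, Bool.false_eq_true, if_false, Complex.star_def,
    Complex.conj_ofReal, ← Complex.ofReal_mul, Complex.ofReal_inj]
  cases s <;> simp [h1, h2, mul_comm]

theorem pureSt_density {p : ℝ} (hp : p ∈ Icc (0 : ℝ) 1) (s : Bool) : IsDensity (pureSt p s) := by
  refine ⟨posSemidef_self_mul_conjTranspose _, ?_⟩
  obtain ⟨h1, h2, -, -⟩ := pureSt_apply hp s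
  rw [trace_bool, h1, h2]
  push_cast; ring

theorem entropy_pureSt {γ ν : ℝ} (hγ : γ ∈ Icc (0 : ℝ) 1) (hν : ν ∈ Icc (0 : ℝ) 1) {p : ℝ}
    (hp : p ∈ Icc (0 : ℝ) 1) (s : Bool) : vnEntropy (gadMap γ ν (pureSt p s)) = fG γ ν p := by
  have hH := gadMap_isHermitian γ ν (pureSt_density hp s).1.isHermitian
  obtain ⟨μ₁, μ₂, -, -, h3, h4, h5⟩ := fG_eig hγ hν hp
  obtain ⟨e1, e2, e3, e4⟩ := pureSt_apply hp s
  rw [vnEntropy_eq hH, N_two hH (μ₁ := μ₁) (μ₂ := μ₂), h5, neg_neg]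
  · rw [gadMap_trace, (pureSt_density hp s).2, h3, Complex.one_re]
  · rw [det_bool, h4]
    simp only [gadMap, Matrix.of_apply, e1, e2, e3, e4, and_self, if_true, Bool.false_eq_true,
      Bool.true_eq_false, and_false, false_and, if_false, ← Complex.ofReal_mul,
      ← Complex.ofReal_add, ← Complex.ofReal_sub, Complex.ofReal_re]
    have h1 := Real.mul_self_sqrt hp.1
    have h2 := Real.mul_self_sqrt (show 0 ≤ 1 - p by linarith [hp.2])
    have h6 := Real.mul_self_sqrt (show 0 ≤ 1 - γ by linarith [hγ.2])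
    have h7 : Real.sqrt (1 - γ) * ((if s then 1 else -1) * (Real.sqrt p * Real.sqrt (1 - p))) *
        (Real.sqrt (1 - γ) * ((if s then 1 else -1) * (Real.sqrt p * Real.sqrt (1 - p)))) =
        (Real.sqrt (1 - γ) * Real.sqrt (1 - γ)) * (Real.sqrt p * Real.sqrt p) *
          (Real.sqrt (1 - p) * Real.sqrt (1 - p)) := by
      cases s <;> simp <;> ring
    rw [h7, h1, h2, h6]
    unfold vG
    ring

/-- The rate function is reached by two pure states. -/
theorem exists_ens_rate {γ ν : ℝ} (hγ : γ ∈ Icc (0 : ℝ) 1) (hν : ν ∈ Icc (0 : ℝ) 1) {p : ℝ}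
    (hp : p ∈ Icc (0 : ℝ) 1) : ∃ (m : ℕ) (q : Fin m → ℝ) (ρ : Fin m → Matrix Bool Bool ℂ),
      IsEnsemble q ρ ∧ holevoInfo (gadMap γ ν) q ρ = gadRate γ ν p := by
  obtain ⟨m, q, ρ, hE, hh⟩ := exists_fin (gadMap γ ν) (fun _ : Bool => (1 / 2 : ℝ)) (pureSt p)
    (fun _ => by norm_num) (by simp) (pureSt_density hp)
  refine ⟨m, q, ρ, hE, ?_⟩
  rw [hh, gadRate_eq]
  unfold hol
  simp only [entropy_pureSt hγ hν hp]
  have hH : (∑ a : Bool, ((1 / 2 : ℝ) : ℂ) • gadMap γ ν (pureSt p a)).IsHermitian := by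
    rw [Fintype.sum_bool]
    obtain ⟨U, l, h⟩ := exists_isDiag (gadMap_isHermitian γ ν (pureSt_density hp true).1.isHermitian)
    obtain ⟨U', l', h'⟩ :=
      exists_isDiag (gadMap_isHermitian γ ν (pureSt_density hp false).1.isHermitian)
    exact (h.smul _).isHermitian.add (h'.smul _).isHermitian
  obtain ⟨e1, e2, e3, e4⟩ := pureSt_apply hp true
  obtain ⟨e1', e2', e3', e4'⟩ := pureSt_apply hp false
  rw [vnEntropy_eq hH, N_two hH (μ₁ := (1 - γ) * p + γ * ν) (μ₂ := 1 - ((1 - γ) * p + γ * ν))]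
  · rw [Real.binEntropy_eq_negMulLog_add_negMulLog_one_sub, Fintype.sum_bool]
    simp only [Real.negMulLog]
    ring
  · rw [Fintype.sum_bool, trace_add, trace_smul, trace_smul, gadMap_trace, gadMap_trace,
      (pureSt_density hp true).2, (pureSt_density hp false).2]
    norm_num
  · rw [det_bool, Fintype.sum_bool]
    simp only [Matrix.add_apply, Matrix.smul_apply, smul_eq_mul, gadMap, Matrix.of_apply, e1, e2,
      e3, e4, e1', e2', e3', e4', and_self, if_true, Bool.false_eq_true,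
      Bool.true_eq_false, and_false, false_and, if_false, ← Complex.ofReal_mul,
      ← Complex.ofReal_add, ← Complex.ofReal_sub, Complex.ofReal_re]
    ring

theorem gadMap_eq_sum (γ ν : ℝ) (A : Matrix Bool Bool ℂ) (s t : Bool) :
    ∑ s' : Bool, ∑ t' : Bool, qubitCoeff (gadMap γ ν) s t s' t' * A s' t' = gadMap γ ν A s t := by
  cases s <;> cases t <;> simp [qubitCoeff, gadMap, add_comm]

theorem qubitTensor_kronecker (γ ν : ℝ) {Ψ : Matrix d d ℂ → Matrix e e ℂ} (hΨ : IsChannel Ψ)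
    (A : Matrix Bool Bool ℂ) (B : Matrix d d ℂ) :
    qubitTensor (gadMap γ ν) Ψ (A ⊗ₖ B) = gadMap γ ν A ⊗ₖ Ψ B := by
  ext ⟨s, i⟩ ⟨t, j⟩
  have hb : ∀ s' t', block (A ⊗ₖ B) s' t' = A s' t' • B := by
    intro s' t'; ext i j; simp [block]
  simp only [qubitTensor, Matrix.of_apply, hb, hΨ.1.map_smul, Matrix.smul_apply, smul_eq_mul,
    kroneckerMap_apply]
  rw [← gadMap_eq_sum, Finset.sum_mul]
  refine Finset.sum_congr rfl fun s' _ => ?_
  rw [Finset.sum_mul]
  exact Finset.sum_congr rfl fun t' _ => by ring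

theorem density_kronecker {A : Matrix Bool Bool ℂ} {B : Matrix d d ℂ} (hA : IsDensity A)
    (hB : IsDensity B) : IsDensity (A ⊗ₖ B) :=
  ⟨hA.1.kronecker hB.1, by rw [trace_kronecker, hA.2, hB.2, mul_one]⟩

theorem vnEntropy_kronecker {A : Matrix Bool Bool ℂ} {B : Matrix e e ℂ} (hA : A.IsHermitian)
    (hB : B.IsHermitian) (hA1 : A.trace = 1) (hB1 : B.trace = 1) :
    vnEntropy (A ⊗ₖ B) = vnEntropy A + vnEntropy B := by
  obtain ⟨U, l, h⟩ := exists_isDiag hA
  obtain ⟨V, k, h'⟩ := exists_isDiag hB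
  rw [vnEntropy_eq (h.kronecker h').isHermitian, vnEntropy_eq hA, vnEntropy_eq hB,
    N_kronecker hA hB, hA1, hB1]
  simp [add_comm]

theorem entropy_product (γ ν : ℝ) {Ψ : Matrix d d ℂ → Matrix e e ℂ} (hΨ : IsChannel Ψ)
    {A : Matrix Bool Bool ℂ} {B : Matrix d d ℂ} (hA : IsDensity A) (hB : IsDensity B) :
    vnEntropy (qubitTensor (gadMap γ ν) Ψ (A ⊗ₖ B)) =
      vnEntropy (gadMap γ ν A) + vnEntropy (Ψ B) := by
  rw [qubitTensor_kronecker γ ν hΨ, vnEntropy_kronecker (gadMap_isHermitian γ ν hA.1.isHermitian)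
    (chan_psd hΨ hB.1).isHermitian (by rw [gadMap_trace, hA.2]) (chan_density hΨ hB).2]

theorem isHermitian_avg {ι : Type*} [Fintype ι] (q : ι → ℝ) {M : ι → Matrix e e ℂ}
    (hM : ∀ a, (M a).IsHermitian) : (∑ a, (q a : ℂ) • M a).IsHermitian := by
  unfold IsHermitian
  rw [conjTranspose_sum]
  refine Finset.sum_congr rfl fun a _ => ?_
  rw [conjTranspose_smul, (hM a).eq]
  simp

theorem trace_avg {ι : Type*} [Fintype ι] {q : ι → ℝ} (hq : ∑ a, q a = 1) {M : ι → Matrix e e ℂ}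
    (hM : ∀ a, (M a).trace = 1) : (∑ a, (q a : ℂ) • M a).trace = 1 := by
  rw [trace_sum]
  simp only [trace_smul, hM, smul_eq_mul, mul_one]
  exact_mod_cast hq

/-- Product ensembles. -/
theorem holevo_product (γ ν : ℝ) {Ψ : Matrix d d ℂ → Matrix e e ℂ} (hΨ : IsChannel Ψ)
    {m₁ : ℕ} {q₁ : Fin m₁ → ℝ} {ρ₁ : Fin m₁ → Matrix Bool Bool ℂ}
    {m₂ : ℕ} {q₂ : Fin m₂ → ℝ} {ρ₂ : Fin m₂ → Matrix d d ℂ} (h₁ : IsEnsemble q₁ ρ₁)
    (h₂ : IsEnsemble q₂ ρ₂) :
    ∃ (m : ℕ) (q : Fin m → ℝ) (ρ : Fin m → Matrix (Bool × d) (Bool × d) ℂ), IsEnsemble q ρ ∧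
      holevoInfo (qubitTensor (gadMap γ ν) Ψ) q ρ =
        holevoInfo (gadMap γ ν) q₁ ρ₁ + holevoInfo Ψ q₂ ρ₂ := by
  obtain ⟨m, q, ρ, hE, hh⟩ := exists_fin (qubitTensor (gadMap γ ν) Ψ)
    (fun x : Fin m₁ × Fin m₂ => q₁ x.1 * q₂ x.2) (fun x => ρ₁ x.1 ⊗ₖ ρ₂ x.2)
    (fun x => mul_nonneg (h₁.1 _) (h₂.1 _))
    (by rw [Fintype.sum_prod_type, ← Finset.sum_mul_sum, h₁.2.1, h₂.2.1, mul_one])
    (fun x => density_kronecker (h₁.2.2 _) (h₂.2.2 _))
  refine ⟨m, q, ρ, hE, ?_⟩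
  rw [hh]
  unfold hol holevoInfo
  have e1 : ∑ x : Fin m₁ × Fin m₂, ((q₁ x.1 * q₂ x.2 : ℝ) : ℂ) •
      qubitTensor (gadMap γ ν) Ψ (ρ₁ x.1 ⊗ₖ ρ₂ x.2) =
      (∑ a, (q₁ a : ℂ) • gadMap γ ν (ρ₁ a)) ⊗ₖ (∑ b, (q₂ b : ℂ) • Ψ (ρ₂ b)) := by
    simp only [qubitTensor_kronecker γ ν hΨ]
    ext ⟨s, i⟩ ⟨t, j⟩
    simp only [Matrix.sum_apply, Matrix.smul_apply, smul_eq_mul, kroneckerMap_apply,
      Fintype.sum_prod_type, Finset.sum_mul_sum]
    refine Finset.sum_congr rfl fun a _ => Finset.sum_congr rfl fun b _ => ?_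
    push_cast; ring
  have e2 : ∑ x : Fin m₁ × Fin m₂, q₁ x.1 * q₂ x.2 *
      vnEntropy (qubitTensor (gadMap γ ν) Ψ (ρ₁ x.1 ⊗ₖ ρ₂ x.2)) =
      ∑ a, q₁ a * vnEntropy (gadMap γ ν (ρ₁ a)) + ∑ b, q₂ b * vnEntropy (Ψ (ρ₂ b)) := by
    simp only [entropy_product γ ν hΨ (h₁.2.2 _) (h₂.2.2 _)]
    rw [Fintype.sum_prod_type]
    calc ∑ a, ∑ b, q₁ a * q₂ b * (vnEntropy (gadMap γ ν (ρ₁ a)) + vnEntropy (Ψ (ρ₂ b)))
        = (∑ a, q₁ a * vnEntropy (gadMap γ ν (ρ₁ a))) * (∑ b, q₂ b)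
          + (∑ a, q₁ a) * ∑ b, q₂ b * vnEntropy (Ψ (ρ₂ b)) := by
          rw [Finset.sum_mul_sum, Finset.sum_mul_sum, ← Finset.sum_add_distrib]
          refine Finset.sum_congr rfl fun a _ => ?_
          rw [← Finset.sum_add_distrib]
          exact Finset.sum_congr rfl fun b _ => by ring
      _ = _ := by rw [h₁.2.1, h₂.2.1, mul_one, one_mul]
  rw [e1, e2, vnEntropy_kronecker
    (isHermitian_avg _ fun a => gadMap_isHermitian γ ν (h₁.2.2 a).1.isHermitian)
    (isHermitian_avg _ fun a => (chan_psd hΨ (h₂.2.2 a).1).isHermitian)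
    (trace_avg h₁.2.1 fun a => by rw [gadMap_trace, (h₁.2.2 a).2])
    (trace_avg h₂.2.1 fun a => (chan_density hΨ (h₂.2.2 a)).2)]
  ring

/-- Minimum output entropy: lower bound. -/
theorem entropy_lower [Nonempty d] {γ ν : ℝ} (hγ : γ ∈ Icc (0 : ℝ) 1) (hν : ν ∈ Icc (0 : ℝ) 1)
    {Ψ : Matrix d d ℂ → Matrix e e ℂ} (hΨ : IsChannel Ψ) {ρ : Matrix (Bool × d) (Bool × d) ℂ}
    (hρ : IsDensity ρ) : ∃ (ρ₁ : Matrix Bool Bool ℂ) (ρ₂ : Matrix d d ℂ),
      IsDensity ρ₁ ∧ IsDensity ρ₂ ∧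
        vnEntropy (gadMap γ ν ρ₁) + vnEntropy (Ψ ρ₂) ≤ vnEntropy (qubitTensor (gadMap γ ν) Ψ ρ) := by
  choose σ hσ hσ' using fun (j : Bool) => exists_normalised (block_psd hρ.1 j)
  have ht0 : ∀ j, 0 ≤ (block ρ j j).trace.re := fun j =>
    (Complex.nonneg_iff.1 (block_psd hρ.1 j).trace_nonneg).1
  have ht1 : (block ρ false false).trace.re + (block ρ true true).trace.re = 1 := by
    rw [← Complex.add_re, ← trace_blocks, hρ.2, Complex.one_re]
  have hp : (block ρ true true).trace.re ∈ Icc (0 : ℝ) 1 := ⟨ht0 _, by linarith [ht0 false]⟩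
  have h := (out_entropy hγ hν hΨ hρ hσ hσ').2
  rw [Fintype.sum_bool, show (block ρ false false).trace.re = 1 - (block ρ true true).trace.re by
    linarith] at h
  rcases le_total (vnEntropy (Ψ (σ true))) (vnEntropy (Ψ (σ false))) with hle | hle
  · refine ⟨_, _, pureSt_density hp true, hσ true, ?_⟩
    rw [entropy_pureSt hγ hν hp]
    nlinarith [hp.1, hp.2]
  · refine ⟨_, _, pureSt_density hp true, hσ false, ?_⟩
    rw [entropy_pureSt hγ hν hp]
    nlinarith [hp.1, hp.2]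

end Crest.Agent.R341
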