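import Crest.Agent.R341.Key
import Crest.Agent.R341.Convex
import Crest.Prelude.Def_AmpDamp

/-!
The output entropy of the amplitude-damping channel tensored with the identity.
-/

set_option autoImplicit false

namespace Crest.Agent.R341

open Set Matrix Crest.Agent.Lib.QEnt Crest.Quantum Crest.MathPhysics.AmpDamp
open scoped ComplexOrder

variable {e : Type*} [Fintype e] [DecidableEq e]

/-- The action of the channel on the first qubit, in block form. -/
noncomputable def gadBlocks (γ ν : ℝ) (A X Y B : Matrix e e ℂ) : Matrix (e ⊕ e) (e ⊕ e) ℂ :=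
  fromBlocks (((1 - γ * ν : ℝ) : ℂ) • A + ((γ * (1 - ν) : ℝ) : ℂ) • B)
    (((Real.sqrt (1 - γ) : ℝ) : ℂ) • X) (((Real.sqrt (1 - γ) : ℝ) : ℂ) • Y)
    (((γ * ν : ℝ) : ℂ) • A + ((1 - γ + γ * ν : ℝ) : ℂ) • B)

omit [Fintype e] [DecidableEq e] in
theorem psd_smul {A : Matrix e e ℂ} (hA : A.PosSemidef) {s : ℝ} (hs : 0 ≤ s) :
    ((s : ℂ) • A).PosSemidef := hA.smul (by exact_mod_cast hs)

omit [Fintype e] [DecidableEq e] in
theorem smul_mul_smul_conj {κ : Type*} [Fintype κ] (u v : Matrix e κ ℂ) (s t : ℝ) :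
    ((s : ℂ) • u) * ((t : ℂ) • v)ᴴ = ((s * t : ℝ) : ℂ) • (u * vᴴ) := by
  rw [conjTranspose_smul, Matrix.smul_mul, Matrix.mul_smul, smul_smul]
  simp

theorem gad_key {γ ν : ℝ} (hγ : γ ∈ Icc (0 : ℝ) 1) (hν : ν ∈ Icc (0 : ℝ) 1)
    {A X Y B : Matrix e e ℂ} (hM : (fromBlocks A X Y B).PosSemidef)
    (htr : A.trace.re + B.trace.re = 1) :
    (gadBlocks γ ν A X Y B).PosSemidef ∧
      N (gadBlocks γ ν A X Y B) ≤ - fG γ ν B.trace.re + R A + R B := by
  obtain ⟨v, hv⟩ := exists_sqrt hM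
  rw [← fromRows_toRows v, conjTranspose_fromRows_eq_fromCols_conjTranspose,
    fromRows_mul_fromCols, fromBlocks_inj] at hv
  obtain ⟨hA, hX, hY, hB⟩ := hv
  set v₁ := v.toRows₁
  set v₂ := v.toRows₂
  have hAp : A.PosSemidef := hA ▸ posSemidef_self_mul_conjTranspose v₁
  have hBp : B.PosSemidef := hB ▸ posSemidef_self_mul_conjTranspose v₂
  have hγ0 := hγ.1
  have hν0 := hν.1
  have hγ1 : 0 ≤ 1 - γ := by linarith [hγ.2]
  have hν1 : 0 ≤ 1 - ν := by linarith [hν.2]
  set a₀ := 1 - γ * ν with ha₀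
  have ha0 : 0 ≤ a₀ := by nlinarith
  have hle : 1 - γ ≤ a₀ := by nlinarith
  set d₁ := (1 - γ) / a₀ with hd₁
  have hd10 : 0 ≤ d₁ := by positivity
  have had : a₀ * d₁ = 1 - γ := by
    rcases ha0.eq_or_lt with h | h
    · rw [← h, zero_mul]; linarith
    · rw [hd₁]; field_simp
  have hdd : 0 ≤ 1 - γ + γ * ν - d₁ := by
    rcases ha0.eq_or_lt with h | h
    · rw [hd₁, ← h, div_zero, sub_zero]; positivity
    · rw [sub_nonneg, hd₁, div_le_iff₀ h]
      have : (1 - γ + γ * ν) * a₀ - (1 - γ) = γ * (1 - ν) * (γ * ν) := by rw [ha₀]; ring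
      have : 0 ≤ γ * (1 - ν) * (γ * ν) := by positivity
      linarith
  let a := ((Real.sqrt a₀ : ℝ) : ℂ) • v₁
  let b := ((Real.sqrt d₁ : ℝ) : ℂ) • v₂
  let C := ((γ * (1 - ν) : ℝ) : ℂ) • B
  let D := ((1 - γ + γ * ν - d₁ : ℝ) : ℂ) • B + ((γ * ν : ℝ) : ℂ) • A
  have haa : a * aᴴ = ((a₀ : ℝ) : ℂ) • A := by
    rw [smul_mul_smul_conj, Real.mul_self_sqrt ha0, hA]
  have hbb : b * bᴴ = ((d₁ : ℝ) : ℂ) • B := by
    rw [smul_mul_smul_conj, Real.mul_self_sqrt hd10, hB]
  have hab : a * bᴴ = ((Real.sqrt (1 - γ) : ℝ) : ℂ) • X := by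
    rw [smul_mul_smul_conj, ← Real.sqrt_mul ha0, had, hX]
  have hba : b * aᴴ = ((Real.sqrt (1 - γ) : ℝ) : ℂ) • Y := by
    rw [smul_mul_smul_conj, mul_comm, ← Real.sqrt_mul ha0, had, hY]
  have hC : C.PosSemidef := psd_smul hBp (by positivity)
  have hD1 := psd_smul hBp hdd
  have hD2 := psd_smul hAp (show 0 ≤ γ * ν by positivity)
  have hD : D.PosSemidef := hD1.add hD2
  have hG : gadBlocks γ ν A X Y B =
      fromBlocks (a * aᴴ + C) (a * bᴴ) (b * aᴴ) (b * bᴴ + D) := by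
    rw [haa, hbb, hab, hba]
    unfold gadBlocks
    congr 1
    simp only [D]
    rw [← add_assoc, ← add_smul, add_comm]
    congr 2
    push_cast; ring
  have hα : 0 ≤ A.trace.re := (Complex.nonneg_iff.1 hAp.trace_nonneg).1
  have hβ : 0 ≤ B.trace.re := (Complex.nonneg_iff.1 hBp.trace_nonneg).1
  obtain ⟨μ₁, μ₂, h1, h2, h3, h4, h5⟩ := fG_eig hγ hν (p := B.trace.re) ⟨hβ, by linarith⟩
  rw [hG]
  refine ⟨four_posSemidef a b hC hD, ?_⟩
  have tC : C.trace.re = γ * (1 - ν) * B.trace.re := trace_smul_re _ _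
  have tD : D.trace.re = (1 - γ + γ * ν - d₁) * B.trace.re + γ * ν * A.trace.re := by
    simp only [D]; rw [trace_add, Complex.add_re, trace_smul_re, trace_smul_re]
  have hAB : A.trace.re = 1 - B.trace.re := by linarith
  have hk := key a b hC hD h1 h2
    (by rw [tC, tD, haa, hbb, trace_smul_re, trace_smul_re, h3, hAB, ha₀]; ring)
    (by
      rw [tC, tD, haa, hbb, trace_smul_re, trace_smul_re, h4, hAB]
      unfold vG
      have : a₀ * (1 - B.trace.re) * ((1 - γ + γ * ν - d₁) * B.trace.re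
          + γ * ν * (1 - B.trace.re)) = a₀ * (1 - B.trace.re) * ((1 - γ + γ * ν) * B.trace.re
          + γ * ν * (1 - B.trace.re)) - (a₀ * d₁) * (1 - B.trace.re) * B.trace.re := by ring
      rw [this, had, ha₀]
      ring)
  have r1 : R (a * aᴴ) = a₀ * R A := by rw [haa, R_smul hAp.isHermitian]
  have r2 : R (b * bᴴ) = d₁ * R B := by rw [hbb, R_smul hBp.isHermitian]
  have r3 : R C = γ * (1 - ν) * R B := R_smul hBp.isHermitian _
  have r4 : R D ≤ (1 - γ + γ * ν - d₁) * R B + γ * ν * R A := by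
    have := R_add_le hD1 hD2
    rwa [R_smul hBp.isHermitian, R_smul hAp.isHermitian] at this
  rw [r1, r2, r3, h5, ha₀] at hk
  linarith

/-- Block form of a matrix indexed by `Bool × e`. -/
theorem submatrix_blocks {d : Type*} (M : Matrix (Bool × d) (Bool × d) ℂ) :
    M.submatrix (Equiv.boolProdEquivSum d).symm (Equiv.boolProdEquivSum d).symm =
      fromBlocks (block M false false) (block M false true) (block M true false)
        (block M true true) := by
  ext (i | i) (j | j) <;> rfl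

omit [Fintype e] [DecidableEq e] in
theorem qubitTensor_gad_blocks {d : Type*} (γ ν : ℝ)
    (Ψ : Matrix d d ℂ → Matrix e e ℂ) (M : Matrix (Bool × d) (Bool × d) ℂ) :
    (qubitTensor (gadMap γ ν) Ψ M).submatrix (Equiv.boolProdEquivSum e).symm
        (Equiv.boolProdEquivSum e).symm =
      gadBlocks γ ν (Ψ (block M false false)) (Ψ (block M false true)) (Ψ (block M true false))
        (Ψ (block M true true)) := by
  ext (i | i) (j | j) <;>
    simp [qubitTensor, qubitCoeff, gadMap, gadBlocks, Equiv.boolProdEquivSum, add_comm]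

end Crest.Agent.R341
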