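import Crest.Agent.R341.Scalar
import Crest.Agent.Lib.QEnt.Entropy
import Crest.Agent.Lib.QEnt.Count

/-!
The four-block entropy inequality.
-/

set_option autoImplicit false

namespace Crest.Agent.R341

open Set MeasureTheory intervalIntegral Matrix Crest.Agent.Lib.QEnt
open scoped ComplexOrder

variable {e κ : Type*} [Fintype e] [Fintype κ] [DecidableEq e] [DecidableEq κ]

omit [Fintype e] in
theorem shift_posDef {C : Matrix e e ℂ} (hC : C.PosSemidef) {t : ℝ} (ht : 0 < t) :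
    ((t : ℂ) • (1 : Matrix e e ℂ) + C).PosDef :=
  (PosDef.one.smul (by exact_mod_cast ht)).add_posSemidef hC

theorem sum_ind_eq_card {ι : Type*} [Fintype ι] (h : ι → ℝ) (t : ℝ) :
    ∑ i, ind (h i) t = ((Finset.univ.filter fun i => t < h i).card : ℝ) := by
  unfold ind
  rw [Finset.sum_boole]

omit [DecidableEq κ] in
/-- Integrated eigenvalue count. -/
theorem integral_count_ge (a : Matrix e κ ℂ) {C : Matrix e e ℂ} (hC : C.PosSemidef)
    {U : Matrix e e ℂ} {xs : e → ℝ} (hx : IsDiag (a * aᴴ) U xs) {π T : ℝ}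
    (hT : 0 ≤ T) {W : Matrix e e ℂ} {h : e → ℝ}
    (hH : IsDiag (((π⁻¹ : ℝ) : ℂ) • (a * aᴴ) - C) W h) :
    ∑ i, (xs i / π - max (xs i / π - T) 0) - C.trace.re ≤
      ∫ t in (0 : ℝ)..T, ∑ i, ind (h i) t := by
  rw [integral_finsetSum (fun i _ => ind_int _ _ _)]
  simp only [integral_ind _ hT]
  rw [Finset.sum_sub_distrib, Finset.sum_sub_distrib]
  have h1 : ∑ i, xs i / π - C.trace.re ≤ ∑ i, max (h i) 0 := by
    refine le_trans (le_of_eq ?_) (Finset.sum_le_sum fun i _ => le_max_left _ _)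
    rw [← hH.trace_re, trace_sub, Complex.sub_re, trace_smul_re, hx.trace_re, Finset.mul_sum]
    simp only [div_eq_inv_mul]
  have hconv : ConvexOn ℝ univ (fun u : ℝ => max (u / π - T) 0) := by
    refine ConvexOn.sup (f := fun u : ℝ => u / π - T) (g := fun _ => 0) ?_
      (convexOn_const _ convex_univ)
    refine ⟨convex_univ, fun u _ v _ a b _ _ hab => le_of_eq ?_⟩
    simp only [smul_eq_mul]
    have : b = 1 - a := by linarith
    subst this
    ring
  have h2 : ∑ i, max (h i - T) 0 ≤ ∑ i, max (xs i / π - T) 0 := by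
    refine le_trans (Finset.sum_le_sum fun i _ => ?_)
      (hx.peierls hH.uni hconv (fun _ => mem_univ _))
    refine max_le_max ?_ le_rfl
    rw [← hH.dg_self, dg_sub, dg_smul, div_eq_inv_mul]
    linarith [dg_nonneg W hC i]
  linarith

/-- The estimate for one potential. -/
theorem one_pot (a : Matrix e κ ℂ) {C : Matrix e e ℂ} (hC : C.PosSemidef)
    {U : Matrix e e ℂ} {xs : e → ℝ} (hx : IsDiag (a * aᴴ) U xs) {c K : ℝ} (hc : 0 < c)
    (hCc : C.trace.re ≤ c) {g : ℝ → ℝ} (hg : Pot g ((∑ i, xs i) / c) K) (hK : 0 ≤ K)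
    {T : ℝ} (hT : c ≤ T) {ε : ℝ} (hε : 0 < ε) :
    ∃ G : ℝ → ℝ, IntervalIntegrable G volume 0 T ∧
      (∀ t : ℝ, 0 < t → ∀ (V : Matrix κ κ ℂ) (p : κ → ℝ),
        IsDiag (aᴴ * ((t : ℂ) • (1 : Matrix e e ℂ) + C)⁻¹ * a) V p → G t ≤ ∑ j, g (p j)) ∧
      (∫ t in (0 : ℝ)..T, g ((∑ i, xs i) / (t + c))) + (1 - K * (∑ i, xs i) / T) *
        ((∑ i, xs i) * Real.log (∑ i, xs i) - ∑ i, xs i * Real.log (xs i))
        - c * (∑ i, xs i) / T - ε ≤ ∫ t in (0 : ℝ)..T, G t := by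
  set x := ∑ i, xs i with hxdef
  have hT0 : 0 < T := hc.trans_le hT
  have hxs : ∀ i, 0 ≤ xs i := hx.nonneg (posSemidef_self_mul_conjTranspose a)
  have hx0 : 0 ≤ x := Finset.sum_nonneg fun i _ => hxs i
  have hg0 : ∀ p, 0 ≤ g p := by
    intro p
    rcases le_total p 0 with h | h
    · rw [hg.zero p h]
    · rw [← hg.zero 0 le_rfl]; exact hg.mono h
  rcases hx0.eq_or_lt with h0 | hxpos
  · refine ⟨fun _ => 0, _root_.intervalIntegrable_const, fun t _ V p _ =>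
      Finset.sum_nonneg fun j _ => hg0 _, ?_⟩
    have hz : ∀ i, xs i = 0 := fun i =>
      (Finset.sum_eq_zero_iff_of_nonneg fun i _ => hxs i).1 h0.symm i (Finset.mem_univ i)
    simp only [← h0, hz, zero_div, hg.zero 0 le_rfl]
    simp [hε.le]
  -- the step size
  obtain ⟨n, hn⟩ := exists_nat_gt (Fintype.card e * (x / c) * T / ε + 1)
  have hn0 : (0 : ℝ) < n := lt_of_le_of_lt (by positivity) hn
  set η := x / c / n with hηdef
  have hη : 0 < η := by positivity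
  have hnη : (n : ℝ) * η = x / c := by rw [hηdef]; field_simp
  have hηε : Fintype.card e * (η * T) ≤ ε := by
    have h1 : Fintype.card e * (x / c) * T / ε ≤ n := by linarith
    rw [div_le_iff₀ hε] at h1
    have h2 : Fintype.card e * (η * T) = Fintype.card e * (x / c) * T / n := by
      rw [hηdef]; ring
    rw [h2, div_le_iff₀ hn0]
    linarith
  have hτ : ∀ k : ℕ, 0 < ((k + 1 : ℕ) : ℝ) * η := fun k => by positivity
  have hherm : ∀ k : ℕ, ((((((k + 1 : ℕ) : ℝ) * η)⁻¹ : ℝ) : ℂ) • (a * aᴴ) - C).IsHermitian := by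
    intro k
    exact (hx.smul _).isHermitian.sub hC.isHermitian
  choose W h hWh using fun k => exists_isDiag (hherm k)
  refine ⟨fun t => ∑ k ∈ Finset.range n, jump g η k * ∑ i, ind (h k i) t,
    int_sum _ fun k _ => (int_sum _ fun i _ => ind_int _ _ _).const_mul _, ?_, ?_⟩
  · intro t ht V p hP
    calc ∑ k ∈ Finset.range n, jump g η k * ∑ i, ind (h k i) t
        ≤ ∑ k ∈ Finset.range n, jump g η k * ∑ j, ind (p j) (((k + 1 : ℕ) : ℝ) * η) := by
          refine Finset.sum_le_sum fun k _ => mul_le_mul_of_nonneg_left ?_ (jump_nonneg hg hη.le k)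
          rw [sum_ind_eq_card, sum_ind_eq_card]
          exact_mod_cast card_eig_le a (hτ k) (shift_posDef hC ht) (hWh k) hP
      _ = ∑ j, ∑ k ∈ Finset.range n, jump g η k * ind (p j) (((k + 1 : ℕ) : ℝ) * η) := by
          rw [Finset.sum_comm]
          exact Finset.sum_congr rfl fun k _ => Finset.mul_sum _ _ _
      _ ≤ ∑ j, g (p j) := Finset.sum_le_sum fun j _ => step_le hg hη.le n _
  · rw [integral_finsetSum fun k _ => (int_sum _ fun i _ => ind_int _ _ _).const_mul _]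
    simp only [intervalIntegral.integral_const_mul]
    have e1 : ∑ k ∈ Finset.range n, jump g η k *
        (∑ i, (xs i / (((k + 1 : ℕ) : ℝ) * η) - max (xs i / (((k + 1 : ℕ) : ℝ) * η) - T) 0) - c)
        ≤ ∑ k ∈ Finset.range n, jump g η k * ∫ t in (0 : ℝ)..T, ∑ i, ind (h k i) t := by
      refine Finset.sum_le_sum fun k _ => mul_le_mul_of_nonneg_left ?_ (jump_nonneg hg hη.le k)
      have := integral_count_ge a hC hx hT0.le (hWh k)
      linarith
    refine le_trans ?_ e1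
    simp only [mul_sub, Finset.sum_sub_distrib]
    rw [← Finset.sum_mul, sum_jump hg, hnη]
    have e2 := Finset.sum_le_sum (s := Finset.univ) fun i _ =>
      step_integral_ge hg hK hxpos hc hη n hnη.ge hT (hxs i)
        (Finset.single_le_sum (f := xs) (fun i _ => hxs i) (Finset.mem_univ i))
    rw [Finset.sum_comm] at e2
    simp only [mul_sub, Finset.sum_sub_distrib, Finset.sum_add_distrib, ← Finset.mul_sum,
      ← Finset.sum_mul, ← Finset.sum_div, ← hxdef, div_self hxpos.ne', one_mul,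
      Finset.sum_const, Finset.card_univ, nsmul_eq_mul] at e2
    have e3 := ref_integral_le hg hx0 hc hT
    simp only [← Finset.sum_div, ← hxdef]
    linarith

theorem posSemidef_fromBlocks_diag {C D : Matrix e e ℂ} (hC : C.PosSemidef) (hD : D.PosSemidef) :
    (fromBlocks C 0 0 D).PosSemidef := by
  obtain ⟨u, rfl⟩ := exists_sqrt hC
  obtain ⟨v, rfl⟩ := exists_sqrt hD
  have := posSemidef_self_mul_conjTranspose (fromBlocks u 0 0 v)
  rw [fromBlocks_conjTranspose, fromBlocks_multiply] at this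
  simpa using this

omit [DecidableEq e] [DecidableEq κ] [Fintype e] in
theorem four_eq (a b : Matrix e κ ℂ) (C D : Matrix e e ℂ) :
    fromBlocks (a * aᴴ + C) (a * bᴴ) (b * aᴴ) (b * bᴴ + D) =
      fromBlocks C 0 0 D + fromRows a b * (fromRows a b)ᴴ := by
  rw [conjTranspose_fromRows_eq_fromCols_conjTranspose, fromRows_mul_fromCols, fromBlocks_add]
  simp [add_comm]

omit [DecidableEq κ] in
theorem four_posSemidef (a b : Matrix e κ ℂ) {C D : Matrix e e ℂ} (hC : C.PosSemidef)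
    (hD : D.PosSemidef) : (fromBlocks (a * aᴴ + C) (a * bᴴ) (b * aᴴ) (b * bᴴ + D)).PosSemidef := by
  rw [four_eq]
  exact (posSemidef_fromBlocks_diag hC hD).add (posSemidef_self_mul_conjTranspose _)

theorem det_four (a b : Matrix e κ ℂ) {C D : Matrix e e ℂ} (hC : C.PosSemidef)
    (hD : D.PosSemidef) {t : ℝ} (ht : 0 < t) :
    ((t : ℂ) • (1 : Matrix (e ⊕ e) (e ⊕ e) ℂ) +
        fromBlocks (a * aᴴ + C) (a * bᴴ) (b * aᴴ) (b * bᴴ + D)).det =
      ((t : ℂ) • (1 : Matrix e e ℂ) + C).det * ((t : ℂ) • (1 : Matrix e e ℂ) + D).det *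
        (((1 : ℝ) : ℂ) • (1 : Matrix κ κ ℂ) + (aᴴ * ((t : ℂ) • (1 : Matrix e e ℂ) + C)⁻¹ * a +
          bᴴ * ((t : ℂ) • (1 : Matrix e e ℂ) + D)⁻¹ * b)).det := by
  set Z₁ := (t : ℂ) • (1 : Matrix e e ℂ) + C with hZ₁
  set Z₂ := (t : ℂ) • (1 : Matrix e e ℂ) + D with hZ₂
  have hu₁ : IsUnit Z₁.det := (Matrix.isUnit_iff_isUnit_det _).1 (shift_posDef hC ht).isUnit
  have hu₂ : IsUnit Z₂.det := (Matrix.isUnit_iff_isUnit_det _).1 (shift_posDef hD ht).isUnit
  have e1 : (t : ℂ) • (1 : Matrix (e ⊕ e) (e ⊕ e) ℂ) + fromBlocks C 0 0 D =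
      fromBlocks Z₁ 0 0 Z₂ := by
    rw [← fromBlocks_one, fromBlocks_smul, fromBlocks_add]
    simp [hZ₁, hZ₂]
  have e2 : (fromBlocks Z₁ 0 0 Z₂)⁻¹ = fromBlocks Z₁⁻¹ 0 0 Z₂⁻¹ := by
    apply inv_eq_right_inv
    rw [fromBlocks_multiply]
    simp [mul_nonsing_inv _ hu₁, mul_nonsing_inv _ hu₂]
  rw [four_eq, ← add_assoc, e1, det_add_mul _ _ (by rw [det_fromBlocks_zero₂₁]; exact hu₁.mul hu₂),
    det_fromBlocks_zero₂₁, e2, conjTranspose_fromRows_eq_fromCols_conjTranspose,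
    fromCols_mul_fromBlocks, fromCols_mul_fromRows]
  simp

theorem log_det_four (a b : Matrix e κ ℂ) {C D : Matrix e e ℂ} (hC : C.PosSemidef)
    (hD : D.PosSemidef) {t : ℝ} (ht : 0 < t)
    {UM : Matrix (e ⊕ e) (e ⊕ e) ℂ} {μ : e ⊕ e → ℝ}
    (hM : IsDiag (fromBlocks (a * aᴴ + C) (a * bᴴ) (b * aᴴ) (b * bᴴ + D)) UM μ)
    {UC UD : Matrix e e ℂ} {cs ds : e → ℝ} (hcs : IsDiag C UC cs) (hds : IsDiag D UD ds)
    {f h : ℝ → ℝ} (hf : ConcaveOn ℝ (Ici 0) f) (hh : ConcaveOn ℝ (Ici 0) h)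
    (hfh : ∀ p q, 0 ≤ p → 0 ≤ q → f p + h q ≤ Real.log (1 + p + q))
    {VP VQ : Matrix κ κ ℂ} {p q : κ → ℝ}
    (hP : IsDiag (aᴴ * ((t : ℂ) • (1 : Matrix e e ℂ) + C)⁻¹ * a) VP p)
    (hQ : IsDiag (bᴴ * ((t : ℂ) • (1 : Matrix e e ℂ) + D)⁻¹ * b) VQ q) :
    ∑ j, f (p j) + ∑ j, h (q j) ≤
      ∑ i, Real.log (t + μ i) - ∑ i, Real.log (t + cs i) - ∑ i, Real.log (t + ds i) := by
  have hPp : (aᴴ * ((t : ℂ) • (1 : Matrix e e ℂ) + C)⁻¹ * a).PosSemidef :=
    (shift_posDef hC ht).inv.posSemidef.conjTranspose_mul_mul_same a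
  have hQp : (bᴴ * ((t : ℂ) • (1 : Matrix e e ℂ) + D)⁻¹ * b).PosSemidef :=
    (shift_posDef hD ht).inv.posSemidef.conjTranspose_mul_mul_same b
  obtain ⟨V, l, hV⟩ := exists_isDiag (hPp.add hQp).isHermitian
  have hdet := det_four a b hC hD ht
  rw [(hM.add_smul_one t).det, (hcs.add_smul_one t).det, (hds.add_smul_one t).det,
    (hV.add_smul_one 1).det] at hdet
  have hdet' : ∏ i, (t + μ i) = (∏ i, (t + cs i)) * (∏ i, (t + ds i)) * ∏ j, (1 + l j) := by
    exact_mod_cast hdet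
  have h1 : ∀ i, t + μ i ≠ 0 := fun i => by
    have := hM.nonneg (four_posSemidef a b hC hD) i; positivity
  have h2 : ∀ i, t + cs i ≠ 0 := fun i => by have := hcs.nonneg hC i; positivity
  have h3 : ∀ i, t + ds i ≠ 0 := fun i => by have := hds.nonneg hD i; positivity
  have h4 : ∀ j, 1 + l j ≠ 0 := fun j => by have := hV.nonneg (hPp.add hQp) j; positivity
  have hlog := congrArg Real.log hdet'
  rw [Real.log_mul (mul_ne_zero (Finset.prod_ne_zero_iff.2 fun i _ => h2 i)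
      (Finset.prod_ne_zero_iff.2 fun i _ => h3 i)) (Finset.prod_ne_zero_iff.2 fun i _ => h4 i),
    Real.log_mul (Finset.prod_ne_zero_iff.2 fun i _ => h2 i)
      (Finset.prod_ne_zero_iff.2 fun i _ => h3 i),
    Real.log_prod (fun i _ => h1 i), Real.log_prod (fun i _ => h2 i),
    Real.log_prod (fun i _ => h3 i), Real.log_prod (fun i _ => h4 i)] at hlog
  have j1 := hP.peierls_concave hV.uni hf (fun j => hP.nonneg hPp j)
  have j2 := hQ.peierls_concave hV.uni hh (fun j => hQ.nonneg hQp j)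
  have j3 : ∑ k, f (dg V (aᴴ * ((t : ℂ) • (1 : Matrix e e ℂ) + C)⁻¹ * a) k) +
      ∑ k, h (dg V (bᴴ * ((t : ℂ) • (1 : Matrix e e ℂ) + D)⁻¹ * b) k) ≤
      ∑ k, Real.log (1 + l k) := by
    rw [← Finset.sum_add_distrib]
    refine Finset.sum_le_sum fun k _ => ?_
    rw [← hV.dg_self, dg_add, ← add_assoc]
    exact hfh _ _ (dg_nonneg V hPp k) (dg_nonneg V hQp k)
  linarith

theorem integral_sum_log {ι : Type*} [Fintype ι] (l : ι → ℝ) (T : ℝ) :
    IntervalIntegrable (fun t => ∑ i, Real.log (t + l i)) volume 0 T ∧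
    ∫ t in (0 : ℝ)..T, ∑ i, Real.log (t + l i) =
      ∑ i, Lam (T + l i) - (∑ i, l i * Real.log (l i) - ∑ i, l i) := by
  refine ⟨int_sum _ fun i _ => log_add_int _ _ _, ?_⟩
  rw [integral_finsetSum fun i _ => log_add_int _ _ _]
  simp only [integral_log_add, Finset.sum_sub_distrib]
  simp only [Lam, Finset.sum_sub_distrib]

theorem sum_Lam_ge {ι : Type*} [Fintype ι] {l : ι → ℝ} (hl : ∀ i, 0 ≤ l i) {T : ℝ} (hT : 0 < T) :
    Fintype.card ι * Lam T + (∑ i, l i) * Real.log T ≤ ∑ i, Lam (T + l i) := by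
  have := Finset.sum_le_sum (s := Finset.univ) fun i _ => Lam_add_ge hT (hl i)
  simpa [Finset.sum_add_distrib, Finset.sum_mul] using this

theorem sum_Lam_le {ι : Type*} [Fintype ι] {l : ι → ℝ} (hl : ∀ i, 0 ≤ l i) {T : ℝ} (hT : 0 < T) :
    ∑ i, Lam (T + l i) ≤
      Fintype.card ι * Lam T + (∑ i, l i) * Real.log T + (∑ i, l i ^ 2) / T := by
  have := Finset.sum_le_sum (s := Finset.univ) fun i _ => Lam_add_le hT (hl i)
  simpa [Finset.sum_add_distrib, Finset.sum_mul, Finset.sum_div] using this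

/-- The four-block inequality with a strictly positive reference. -/
theorem key_pos (a b : Matrix e κ ℂ) {C D : Matrix e e ℂ} (hC : C.PosSemidef)
    (hD : D.PosSemidef) {c δ μ₁ μ₂ : ℝ} (hc : 0 < c) (hδ : 0 < δ) (hCc : C.trace.re ≤ c)
    (hDδ : D.trace.re ≤ δ) (hμ₁ : 0 ≤ μ₁) (hμ₂ : 0 ≤ μ₂)
    (hs : μ₁ + μ₂ = (a * aᴴ).trace.re + c + ((b * bᴴ).trace.re + δ))
    (hp : μ₁ * μ₂ = (a * aᴴ).trace.re * δ + c * (b * bᴴ).trace.re + c * δ) :
    N (fromBlocks (a * aᴴ + C) (a * bᴴ) (b * aᴴ) (b * bᴴ + D)) - N C - N D ≤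
      μ₁ * Real.log μ₁ + μ₂ * Real.log μ₂ - c * Real.log c - δ * Real.log δ
        + R (a * aᴴ) + R (b * bᴴ) := by
  have hMp := four_posSemidef a b hC hD
  obtain ⟨UM, μ, hM⟩ := exists_isDiag hMp.isHermitian
  obtain ⟨UC, cs, hcs⟩ := exists_isDiag hC.isHermitian
  obtain ⟨UD, ds, hds⟩ := exists_isDiag hD.isHermitian
  obtain ⟨Ux, xs, hxs⟩ := exists_isDiag (posSemidef_self_mul_conjTranspose a).isHermitian
  obtain ⟨Uy, ys, hys⟩ := exists_isDiag (posSemidef_self_mul_conjTranspose b).isHermitian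
  have hx0 : 0 ≤ ∑ i, xs i :=
    Finset.sum_nonneg fun i _ => hxs.nonneg (posSemidef_self_mul_conjTranspose a) i
  have hy0 : 0 ≤ ∑ i, ys i :=
    Finset.sum_nonneg fun i _ => hys.nonneg (posSemidef_self_mul_conjTranspose b) i
  obtain ⟨f, h, K, hK, hf, hh, hfh, hcurve⟩ := exists_pair hx0 hy0 hc hδ
  have htrM : ∑ i, μ i = ∑ i, xs i + ∑ i, cs i + (∑ i, ys i + ∑ i, ds i) := by
    rw [← hM.trace_re, ← hxs.trace_re, ← hys.trace_re, ← hcs.trace_re, ← hds.trace_re]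
    simp [Matrix.trace, Fintype.sum_sum_type, Finset.sum_add_distrib]
  unfold R
  rw [hM.N, hcs.N, hds.N, hxs.N, hys.N]
  rw [hxs.trace_re, hys.trace_re] at hs hp ⊢
  set x := ∑ i, xs i with hxdef
  set y := ∑ i, ys i with hydef
  set Ex := x * Real.log x - ∑ i, xs i * Real.log (xs i) with hEx
  set Ey := y * Real.log y - ∑ i, ys i * Real.log (ys i) with hEy
  refine le_of_forall_add_div (T0 := max c δ)
    (Cst := ∑ i, μ i ^ 2 + c ^ 2 + δ ^ 2 + K * x * Ex + K * y * Ey + c * x + δ * y + 2)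
    fun T hT hT0 => ?_
  have hε : 0 < 1 / T := by positivity
  obtain ⟨G₁, hG₁i, hG₁, hG₁'⟩ := one_pot a hC hxs hc hCc hf hK ((le_max_left _ _).trans hT) hε
  obtain ⟨G₂, hG₂i, hG₂, hG₂'⟩ := one_pot b hD hys hδ hDδ hh hK ((le_max_right _ _).trans hT) hε
  obtain ⟨iM, eM⟩ := integral_sum_log μ T
  obtain ⟨iC, eC⟩ := integral_sum_log cs T
  obtain ⟨iD, eD⟩ := integral_sum_log ds T
  have e1 : ∫ t in (0 : ℝ)..T, (G₁ t + G₂ t) ≤ ∫ t in (0 : ℝ)..T,
      (∑ i, Real.log (t + μ i) - ∑ i, Real.log (t + cs i) - ∑ i, Real.log (t + ds i)) := by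
    refine integral_mono_on_of_le_Ioo hT0.le (hG₁i.add hG₂i) ((iM.sub iC).sub iD) fun t ht => ?_
    obtain ⟨VP, p, hP⟩ := exists_isDiag
      ((shift_posDef hC ht.1).inv.posSemidef.conjTranspose_mul_mul_same a).isHermitian
    obtain ⟨VQ, q, hQ⟩ := exists_isDiag
      ((shift_posDef hD ht.1).inv.posSemidef.conjTranspose_mul_mul_same b).isHermitian
    have := log_det_four a b hC hD ht.1 hM hcs hds hf.conc hh.conc hfh hP hQ
    linarith [hG₁ t ht.1 VP p hP, hG₂ t ht.1 VQ q hQ]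
  rw [integral_add hG₁i hG₂i, integral_sub (iM.sub iC) iD, integral_sub iM iC, eM, eC, eD] at e1
  have e2 : (∫ t in (0 : ℝ)..T, f (x / (t + c))) + ∫ t in (0 : ℝ)..T, h (y / (t + δ)) =
      (Lam (T + μ₁) - Lam μ₁) + (Lam (T + μ₂) - Lam μ₂) - (Lam (T + c) - Lam c)
        - (Lam (T + δ) - Lam δ) := by
    rw [← integral_add (ref_int hf hx0 hc hT0.le) (ref_int hh hy0 hδ hT0.le),
      ← integral_log_add, ← integral_log_add, ← integral_log_add, ← integral_log_add,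
      ← integral_add (log_add_int _ _ _) (log_add_int _ _ _),
      ← integral_sub ((log_add_int _ _ _).add (log_add_int _ _ _)) (log_add_int _ _ _),
      ← integral_sub (((log_add_int _ _ _).add (log_add_int _ _ _)).sub (log_add_int _ _ _))
        (log_add_int _ _ _)]
    refine integral_congr fun t ht => ?_
    rw [uIcc_of_le hT0.le] at ht
    have ht0 := ht.1
    rw [hcurve t ht0]
    have h1 : 0 < t + c := by linarith
    have h2 : 0 < t + δ := by linarith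
    have h3 : (t + μ₁) * (t + μ₂) = (t + c) * (t + δ) * (1 + x / (t + c) + y / (t + δ)) := by
      have : (t + μ₁) * (t + μ₂) = t ^ 2 + t * (μ₁ + μ₂) + μ₁ * μ₂ := by ring
      rw [this, hs, hp]
      field_simp
      ring
    have h4 : 0 < 1 + x / (t + c) + y / (t + δ) := by positivity
    have h5 : (t + μ₁) * (t + μ₂) ≠ 0 := by rw [h3]; positivity
    rw [← Real.log_mul (left_ne_zero_of_mul h5) (right_ne_zero_of_mul h5), h3,
      Real.log_mul (by positivity) h4.ne', Real.log_mul h1.ne' h2.ne']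
    ring
  have b1 := sum_Lam_le (hM.nonneg hMp) hT0
  have b2 := sum_Lam_ge (hcs.nonneg hC) hT0
  have b3 := sum_Lam_ge (hds.nonneg hD) hT0
  have b4 := Lam_add_ge hT0 hμ₁
  have b5 := Lam_add_ge hT0 hμ₂
  have b6 := Lam_add_le hT0 hc.le
  have b7 := Lam_add_le hT0 hδ.le
  rw [Fintype.card_sum, Nat.cast_add, htrM] at b1
  rw [htrM] at e1
  have b8 : μ₁ * Real.log T + μ₂ * Real.log T = (x + c + (y + δ)) * Real.log T := by
    rw [← hs]; ring
  have b9 : (∑ i, μ i ^ 2 + c ^ 2 + δ ^ 2 + K * x * Ex + K * y * Ey + c * x + δ * y + 2) / T =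
      (∑ i, μ i ^ 2) / T + c ^ 2 / T + δ ^ 2 / T + K * x / T * Ex + K * y / T * Ey + c * x / T
        + δ * y / T + 1 / T + 1 / T := by ring
  rw [b9]
  have l1 : Lam μ₁ = μ₁ * Real.log μ₁ - μ₁ := rfl
  have l2 : Lam μ₂ = μ₂ * Real.log μ₂ - μ₂ := rfl
  have l3 : Lam c = c * Real.log c - c := rfl
  have l4 : Lam δ = δ * Real.log δ - δ := rfl
  simp only [← hxdef, ← hydef, ← hEx, ← hEy] at hG₁' hG₂'
  linarith

/-- The four-block inequality. -/
theorem key (a b : Matrix e κ ℂ) {C D : Matrix e e ℂ} (hC : C.PosSemidef)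
    (hD : D.PosSemidef) {μ₁ μ₂ : ℝ} (hμ₁ : 0 ≤ μ₁) (hμ₂ : 0 ≤ μ₂)
    (hs : μ₁ + μ₂ = (a * aᴴ).trace.re + C.trace.re + ((b * bᴴ).trace.re + D.trace.re))
    (hp : μ₁ * μ₂ = (a * aᴴ).trace.re * D.trace.re + C.trace.re * (b * bᴴ).trace.re
      + C.trace.re * D.trace.re) :
    N (fromBlocks (a * aᴴ + C) (a * bᴴ) (b * aᴴ) (b * bᴴ + D)) ≤
      μ₁ * Real.log μ₁ + μ₂ * Real.log μ₂ + R (a * aᴴ) + R (b * bᴴ) + R C + R D := by
  set c := C.trace.re with hcdef
  set δ := D.trace.re with hδdef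
  have hc : 0 ≤ c := (Complex.nonneg_iff.1 hC.trace_nonneg).1
  have hδ : 0 ≤ δ := (Complex.nonneg_iff.1 hD.trace_nonneg).1
  have H : ∀ ε : ℝ, 0 < ε →
      N (fromBlocks (a * aᴴ + C) (a * bᴴ) (b * aᴴ) (b * bᴴ + D)) - N C - N D ≤
      (μ₁ + ε) * Real.log (μ₁ + ε) + (μ₂ + ε) * Real.log (μ₂ + ε) - (c + ε) * Real.log (c + ε)
        - (δ + ε) * Real.log (δ + ε) + R (a * aᴴ) + R (b * bᴴ) := by
    intro ε hε
    refine key_pos a b hC hD (by linarith) (by linarith) (by linarith) (by linarith)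
      (by linarith) (by linarith) (by linarith) ?_
    have : (μ₁ + ε) * (μ₂ + ε) = μ₁ * μ₂ + ε * (μ₁ + μ₂) + ε ^ 2 := by ring
    rw [this, hs, hp]; ring
  have hcont : Continuous fun ε : ℝ =>
      (μ₁ + ε) * Real.log (μ₁ + ε) + (μ₂ + ε) * Real.log (μ₂ + ε) - (c + ε) * Real.log (c + ε)
        - (δ + ε) * Real.log (δ + ε) + R (a * aᴴ) + R (b * bᴴ) := by
    have h : ∀ u : ℝ, Continuous fun ε : ℝ => (u + ε) * Real.log (u + ε) := fun u =>
      Real.continuous_mul_log.comp (continuous_const.add continuous_id)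
    exact ((((h _).add (h _)).sub (h _)).sub (h _)).add continuous_const |>.add continuous_const
  have hlim := (hcont.tendsto 0).mono_left (nhdsWithin_le_nhds (s := Ioi (0 : ℝ)))
  have := ge_of_tendsto hlim (eventually_nhdsWithin_of_forall fun ε hε => H ε hε)
  simp only [add_zero] at this
  have hRC : R C = N C - c * Real.log c := rfl
  have hRD : R D = N D - δ * Real.log δ := rfl
  linarith

end Crest.Agent.R341
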