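import Mathlib

/-!
Dual potentials for the cost `log (1 + p + q)` along the curve
`t ↦ (x / (t + c), y / (t + δ))`.
-/

set_option autoImplicit false

namespace Crest.Agent.R341

open Set

/-- The properties of a potential that are used later. -/
structure Pot (g : ℝ → ℝ) (p0 K : ℝ) : Prop where
  mono : Monotone g
  zero : ∀ p, p ≤ 0 → g p = 0
  top : ∀ p, p0 ≤ p → g p = g p0
  lip : ∀ p p', p' ≤ p → g p ≤ g p' + (p - p')
  conc : ConcaveOn ℝ (Ici 0) g
  low : ∀ p, 0 ≤ p → p ≤ p0 → p - K * p ^ 2 ≤ g p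

/-- Clip to `[0, p0]`. -/
noncomputable def clip (p0 p : ℝ) : ℝ := max 0 (min p p0)

theorem clip_mem {p0 : ℝ} (h : 0 ≤ p0) (p : ℝ) : clip p0 p ∈ Icc 0 p0 :=
  ⟨le_max_left _ _, max_le h (min_le_right _ _)⟩

theorem clip_of_mem {p0 p : ℝ} (h : p ∈ Icc 0 p0) : clip p0 p = p := by
  unfold clip; rw [min_eq_left h.2, max_eq_right h.1]

theorem clip_le {p0 p : ℝ} (h : 0 ≤ p) : clip p0 p ≤ p := max_le h (min_le_left _ _)

theorem clip_mono (p0 : ℝ) : Monotone (clip p0) := fun _ _ h =>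
  max_le_max le_rfl (min_le_min h le_rfl)

theorem clip_lip (p0 : ℝ) {p p' : ℝ} (h : p' ≤ p) : clip p0 p - clip p0 p' ≤ p - p' := by
  unfold clip
  simp only [max_def, min_def]
  split_ifs <;> linarith

theorem pot_of_support {f : ℝ → ℝ} {p0 K : ℝ} (hp0 : 0 ≤ p0) (h0 : f 0 = 0)
    (hs : ∀ p ∈ Icc 0 p0, ∃ s, 0 ≤ s ∧ s ≤ 1 ∧ 1 - K * p ≤ s ∧
      ∀ p' ∈ Icc 0 p0, f p' ≤ f p + s * (p' - p)) :
    Pot (fun p => f (clip p0 p)) p0 K := by
  have hmono : Monotone (fun p => f (clip p0 p)) := by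
    intro p' p h
    obtain ⟨s, hs0, -, -, hs⟩ := hs _ (clip_mem hp0 p)
    have := hs _ (clip_mem hp0 p')
    have h2 := clip_mono p0 h
    have : s * (clip p0 p' - clip p0 p) ≤ 0 := mul_nonpos_of_nonneg_of_nonpos hs0 (by linarith)
    simp only
    linarith
  have htop : ∀ p, p0 ≤ p → clip p0 p = clip p0 p0 := by
    intro p hp
    unfold clip
    rw [min_eq_right hp, min_self]
  refine ⟨hmono, ?_, ?_, ?_, ?_, ?_⟩
  · intro p hp
    have : clip p0 p = 0 := max_eq_left ((min_le_left _ _).trans hp)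
    simp only [this, h0]
  · intro p hp
    simp only [htop p hp]
  · intro p p' h
    obtain ⟨s, hs0, hs1, -, hs⟩ := hs _ (clip_mem hp0 p')
    have h1 := hs _ (clip_mem hp0 p)
    have h2 := clip_mono p0 h
    have h3 := clip_lip p0 h
    have : s * (clip p0 p - clip p0 p') ≤ clip p0 p - clip p0 p' := by nlinarith
    linarith
  · have hsupp : ∀ z, 0 ≤ z → ∃ s, ∀ u, 0 ≤ u →
        f (clip p0 u) ≤ f (clip p0 z) + s * (u - z) := by
      intro z hz
      by_cases hzp : z ≤ p0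
      · obtain ⟨s, hs0, -, -, hs⟩ := hs z ⟨hz, hzp⟩
        refine ⟨s, fun u hu => ?_⟩
        have h1 := hs _ (clip_mem hp0 u)
        rw [clip_of_mem ⟨hz, hzp⟩]
        have h2 := clip_le (p0 := p0) hu
        nlinarith
      · refine ⟨0, fun u _ => ?_⟩
        push Not at hzp
        have h1 : clip p0 u ≤ clip p0 z := by
          rw [htop z hzp.le, clip_of_mem ⟨hp0, le_rfl⟩]; exact (clip_mem hp0 u).2
        have h2 := hmono h1
        simp only [clip_of_mem (clip_mem hp0 _)] at h2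
        linarith
    refine ⟨convex_Ici 0, fun u hu v hv a b ha hb hab => ?_⟩
    have hz : 0 ≤ a * u + b * v := add_nonneg (mul_nonneg ha hu) (mul_nonneg hb hv)
    obtain ⟨s, hs⟩ := hsupp _ hz
    have h1 := mul_le_mul_of_nonneg_left (hs u hu) ha
    have h2 := mul_le_mul_of_nonneg_left (hs v hv) hb
    simp only [smul_eq_mul]
    have hb' : b = 1 - a := by linarith
    subst hb'
    nlinarith
  · intro p hp hpp
    obtain ⟨s, hs0, -, hs2, hs⟩ := hs p ⟨hp, hpp⟩
    have h1 := hs 0 ⟨le_rfl, hp0⟩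
    simp only [clip_of_mem ⟨hp, hpp⟩]
    nlinarith

theorem support_of_pair {f h : ℝ → ℝ} {p0 q0 K : ℝ}
    (hle : ∀ p ∈ Icc 0 p0, ∀ q ∈ Icc 0 q0, f p + h q ≤ Real.log (1 + p + q))
    (heq : ∀ p ∈ Icc 0 p0, ∃ q ∈ Icc 0 q0, q ≤ K * p ∧ f p + h q = Real.log (1 + p + q)) :
    ∀ p ∈ Icc 0 p0, ∃ s, 0 ≤ s ∧ s ≤ 1 ∧ 1 - (K + 1) * p ≤ s ∧
      ∀ p' ∈ Icc 0 p0, f p' ≤ f p + s * (p' - p) := by
  intro p hp
  obtain ⟨q, hq, hqK, he⟩ := heq p hp
  have hpos : 0 < 1 + p + q := by linarith [hp.1, hq.1]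
  refine ⟨1 / (1 + p + q), by positivity, ?_, ?_, ?_⟩
  · rw [div_le_one hpos]; linarith [hp.1, hq.1]
  · rw [le_div_iff₀ hpos]
    have : 1 - (K + 1) * p ≤ 1 - (p + q) := by linarith
    nlinarith [hp.1, hq.1]
  · intro p' hp'
    have h1 := hle p' hp' q hq
    have hpos' : 0 < 1 + p' + q := by linarith [hp'.1, hq.1]
    have h2 : Real.log ((1 + p' + q) / (1 + p + q)) ≤ (1 + p' + q) / (1 + p + q) - 1 :=
      Real.log_le_sub_one_of_pos (by positivity)
    rw [Real.log_div hpos'.ne' hpos.ne'] at h2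
    have h3 : (1 + p' + q) / (1 + p + q) - 1 = 1 / (1 + p + q) * (p' - p) := by
      field_simp; ring
    linarith

/-- The conclusion of the pair lemma. -/
def IsPair (x y c δ : ℝ) (f h : ℝ → ℝ) (K : ℝ) : Prop :=
  0 ≤ K ∧ Pot f (x / c) K ∧ Pot h (y / δ) K ∧
    (∀ p q, 0 ≤ p → 0 ≤ q → f p + h q ≤ Real.log (1 + p + q)) ∧
    ∀ t, 0 ≤ t → f (x / (t + c)) + h (y / (t + δ)) = Real.log (1 + x / (t + c) + y / (t + δ))

theorem curve_mem {x c t : ℝ} (hx : 0 ≤ x) (hc : 0 < c) (ht : 0 ≤ t) :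
    x / (t + c) ∈ Icc 0 (x / c) :=
  ⟨by positivity, div_le_div_of_nonneg_left hx hc (by linarith)⟩

theorem isPair_of_pre {x y c δ : ℝ} (hx : 0 ≤ x) (hy : 0 ≤ y) (hc : 0 < c) (hδ : 0 < δ)
    {f h : ℝ → ℝ} {K : ℝ} (hK : 0 ≤ K) (hf0 : f 0 = 0) (hh0 : h 0 = 0)
    (hle : ∀ p ∈ Icc 0 (x / c), ∀ q ∈ Icc 0 (y / δ), f p + h q ≤ Real.log (1 + p + q))
    (heq : ∀ p ∈ Icc 0 (x / c), ∃ q ∈ Icc 0 (y / δ), q ≤ K * p ∧
      f p + h q = Real.log (1 + p + q))
    (heq' : ∀ q ∈ Icc 0 (y / δ), ∃ p ∈ Icc 0 (x / c), p ≤ K * q ∧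
      f p + h q = Real.log (1 + p + q))
    (hcurve : ∀ t, 0 ≤ t →
      f (x / (t + c)) + h (y / (t + δ)) = Real.log (1 + x / (t + c) + y / (t + δ))) :
    IsPair x y c δ (fun p => f (clip (x / c) p)) (fun q => h (clip (y / δ) q)) (K + 1) := by
  have hp0 : 0 ≤ x / c := by positivity
  have hq0 : 0 ≤ y / δ := by positivity
  refine ⟨by linarith, pot_of_support hp0 hf0 (support_of_pair hle heq),
    pot_of_support hq0 hh0 (support_of_pair (h := f) (q0 := x / c) ?_ ?_), ?_, ?_⟩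
  · intro q hq p hp
    have := hle p hp q hq
    rwa [add_comm, add_right_comm] at this
  · intro q hq
    obtain ⟨p, hp, hpK, he⟩ := heq' q hq
    exact ⟨p, hp, hpK, by rwa [add_comm, add_right_comm] at he⟩
  · intro p q hp hq
    refine (hle _ (clip_mem hp0 p) _ (clip_mem hq0 q)).trans ?_
    have h1 := clip_le (p0 := x / c) hp
    have h2 := clip_le (p0 := y / δ) hq
    have h3 := (clip_mem hp0 p).1
    have h4 := (clip_mem hq0 q).1
    exact Real.log_le_log (by linarith) (by linarith)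
  · intro t ht
    simp only [clip_of_mem (curve_mem hx hc ht), clip_of_mem (curve_mem hy hδ ht)]
    exact hcurve t ht

theorem IsPair.symm {x y c δ : ℝ} {f h : ℝ → ℝ} {K : ℝ} (H : IsPair x y c δ f h K) :
    IsPair y x δ c h f K := by
  obtain ⟨h1, h2, h3, h4, h5⟩ := H
  refine ⟨h1, h3, h2, fun q p hq hp => ?_, fun t ht => ?_⟩
  · have := h4 p q hp hq
    rwa [add_comm, add_right_comm] at this
  · have := h5 t ht
    rwa [add_comm, add_right_comm] at this

theorem exists_pair_zero {y c δ : ℝ} (hy : 0 ≤ y) (hc : 0 < c) (hδ : 0 < δ) :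
    ∃ f h K, IsPair 0 y c δ f h K := by
  refine ⟨_, _, _, isPair_of_pre (f := fun _ => 0) (h := fun q => Real.log (1 + q)) (K := 0)
    le_rfl hy hc hδ le_rfl rfl (by simp) ?_ ?_ ?_ ?_⟩
  · intro p hp q _
    have : p = 0 := le_antisymm (by simpa using hp.2) hp.1
    simp [this]
  · intro p hp
    have : p = 0 := le_antisymm (by simpa using hp.2) hp.1
    exact ⟨0, ⟨le_rfl, by positivity⟩, by simp, by simp [this]⟩
  · intro q _
    exact ⟨0, ⟨le_rfl, by simp⟩, by simp, by simp⟩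
  · intro t _
    simp

/-- The matching map along the curve. -/
noncomputable def mt (x y c δ s : ℝ) : ℝ := y * s / (x + (δ - c) * s)

section mt
variable {x y c δ : ℝ} (hx : 0 < x) (hy : 0 < y) (hc : 0 < c) (hδ : 0 < δ)

include hx hc hδ in
theorem mt_den_pos {s : ℝ} (hs : s ∈ Icc 0 (x / c)) : 0 < x + (δ - c) * s := by
  have h1 : c * s ≤ x := by have := hs.2; rw [le_div_iff₀ hc] at this; linarith
  rcases hs.1.eq_or_lt with h | h
  · rw [← h]; simpa using hx
  · nlinarith [mul_pos hδ h]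

include hx hy hc hδ in
theorem mt_mem {s : ℝ} (hs : s ∈ Icc 0 (x / c)) : mt x y c δ s ∈ Icc 0 (y / δ) := by
  have hd := mt_den_pos hx hc hδ hs
  have h1 : c * s ≤ x := by have := hs.2; rw [le_div_iff₀ hc] at this; linarith
  refine ⟨div_nonneg (mul_nonneg hy.le hs.1) hd.le, ?_⟩
  unfold mt
  rw [div_le_div_iff₀ hd hδ]
  nlinarith

include hx hy hc hδ in
theorem mt_mono {s s' : ℝ} (hs : s ∈ Icc 0 (x / c)) (hs' : s' ∈ Icc 0 (x / c)) (h : s ≤ s') :
    mt x y c δ s ≤ mt x y c δ s' := by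
  have hd := mt_den_pos hx hc hδ hs
  have hd' := mt_den_pos hx hc hδ hs'
  unfold mt
  rw [div_le_div_iff₀ hd hd']
  nlinarith [mul_pos hx hy]

include hx hy hc hδ in
theorem mt_mt {s : ℝ} (hs : s ∈ Icc 0 (x / c)) : mt y x δ c (mt x y c δ s) = s := by
  have hd := mt_den_pos hx hc hδ hs
  unfold mt
  obtain ⟨D, hD⟩ : ∃ D, D = x + (δ - c) * s := ⟨_, rfl⟩
  rw [← hD] at hd ⊢
  have : y + (c - δ) * (y * s / D) = x * y / D := by
    field_simp; rw [hD]; ring
  rw [this]
  field_simp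

include hx hy hc hδ in
theorem mt_le {s : ℝ} (hs : s ∈ Icc 0 (x / c)) :
    mt x y c δ s ≤ (y / x + y * c / (δ * x)) * s := by
  have hd := mt_den_pos hx hc hδ hs
  have h1 : c * s ≤ x := by have := hs.2; rw [le_div_iff₀ hc] at this; linarith
  unfold mt
  rw [div_le_iff₀ hd]
  have key : y ≤ (y / x + y * c / (δ * x)) * (x + (δ - c) * s) := by
    have e : (y / x + y * c / (δ * x)) * (x + (δ - c) * s)
        = y * ((δ + c) * (x + (δ - c) * s) / (δ * x)) := by field_simp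
    rw [e]
    have : 1 ≤ (δ + c) * (x + (δ - c) * s) / (δ * x) := by
      rw [le_div_iff₀ (by positivity)]
      nlinarith [mul_nonneg (mul_nonneg hδ.le hδ.le) hs.1]
    nlinarith
  nlinarith [hs.1]

include hx hc hδ in
theorem mt_curve {t : ℝ} (ht : 0 ≤ t) : mt x y c δ (x / (t + c)) = y / (t + δ) := by
  unfold mt
  have h1 : 0 < t + c := by linarith
  have h2 : 0 < t + δ := by linarith
  have : x + (δ - c) * (x / (t + c)) = x * (t + δ) / (t + c) := by field_simp; ring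
  rw [this]
  field_simp

include hx hy hc hδ in
theorem exists_pair_pos : ∃ f h K, IsPair x y c δ f h K := by
  let φ : ℝ → ℝ := fun s => 1 / (1 + s + mt x y c δ s)
  let f : ℝ → ℝ := fun p => ∫ s in (0 : ℝ)..p, φ s
  let h : ℝ → ℝ := fun q => Real.log (1 + mt y x δ c q + q) - f (mt y x δ c q)
  have hφc : ContinuousOn φ (Icc 0 (x / c)) := by
    refine continuousOn_const.div ((continuousOn_const.add continuousOn_id).add ?_) ?_
    · exact (continuousOn_const.mul continuousOn_id).div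
        (continuousOn_const.add (continuousOn_const.mul continuousOn_id))
        (fun s hs => (mt_den_pos hx hc hδ hs).ne')
    · intro s hs
      have := (mt_mem hx hy hc hδ hs).1
      have := hs.1
      positivity
  have hφi : ∀ a ∈ Icc 0 (x / c), ∀ b ∈ Icc 0 (x / c),
      IntervalIntegrable φ MeasureTheory.volume a b := by
    intro a ha b hb
    exact (hφc.mono (uIcc_subset_Icc ha hb)).intervalIntegrable
  have hp0 : (0 : ℝ) ∈ Icc 0 (x / c) := ⟨le_rfl, by positivity⟩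
  have hfsub : ∀ a ∈ Icc 0 (x / c), ∀ b ∈ Icc 0 (x / c), f b - f a = ∫ s in a..b, φ s := by
    intro a ha b hb
    exact intervalIntegral.integral_interval_sub_left (hφi _ hp0 _ hb) (hφi _ hp0 _ ha)
  have hlog : ∀ q, 0 ≤ q → ∀ a, 0 ≤ a → ∀ b, 0 ≤ b →
      IntervalIntegrable (fun s => 1 / (1 + s + q)) MeasureTheory.volume a b ∧
      ∫ s in a..b, 1 / (1 + s + q) = Real.log (1 + b + q) - Real.log (1 + a + q) := by
    intro q hq a ha b hb
    have hpos : ∀ s ∈ uIcc a b, 0 < 1 + s + q := by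
      intro s hs
      have : 0 ≤ s := (le_min ha hb).trans hs.1
      linarith
    have hi : IntervalIntegrable (fun s => 1 / (1 + s + q)) MeasureTheory.volume a b := by
      refine ContinuousOn.intervalIntegrable ?_
      exact continuousOn_const.div (by fun_prop) (fun s hs => (hpos s hs).ne')
    refine ⟨hi, intervalIntegral.integral_eq_sub_of_hasDerivAt
      (f := fun s => Real.log (1 + s + q)) (fun s hs => ?_) hi⟩
    have := (((hasDerivAt_id s).const_add 1).add_const q).log (hpos s hs).ne'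
    simpa using this
  have hmt0 : ∀ u v w z : ℝ, mt u v w z 0 = 0 := by intro u v w z; simp [mt]
  refine ⟨_, _, _, isPair_of_pre (f := f) (h := h)
    (K := (y / x + y * c / (δ * x)) + (x / y + x * δ / (c * y)))
    hx.le hy.le hc hδ (by positivity) (by simp [f]) (by simp [h, f, hmt0]) ?_ ?_ ?_ ?_⟩
  · intro p hp q hq
    have hps := mt_mem hy hx hδ hc hq
    have hinv := mt_mt hy hx hδ hc hq
    simp only [h]
    set ps := mt y x δ c q with hpsdef
    rcases le_total ps p with hle | hle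
    · obtain ⟨hi, he⟩ := hlog q hq.1 ps hps.1 p hp.1
      have h1 := hfsub ps hps p hp
      have h2 : ∫ s in ps..p, φ s ≤ ∫ s in ps..p, 1 / (1 + s + q) := by
        refine intervalIntegral.integral_mono_on hle (hφi _ hps _ hp) hi fun s hs => ?_
        have hs' : s ∈ Icc 0 (x / c) := ⟨hps.1.trans hs.1, hs.2.trans hp.2⟩
        have := mt_mono hx hy hc hδ hps hs' hs.1
        rw [hinv] at this
        exact one_div_le_one_div_of_le (by linarith [hs'.1, hq.1]) (by linarith)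
      linarith
    · obtain ⟨hi, he⟩ := hlog q hq.1 p hp.1 ps hps.1
      have h1 := hfsub p hp ps hps
      have h2 : ∫ s in p..ps, 1 / (1 + s + q) ≤ ∫ s in p..ps, φ s := by
        refine intervalIntegral.integral_mono_on hle hi (hφi _ hp _ hps) fun s hs => ?_
        have hs' : s ∈ Icc 0 (x / c) := ⟨hp.1.trans hs.1, hs.2.trans hps.2⟩
        have := mt_mono hx hy hc hδ hs' hps hs.2
        rw [hinv] at this
        have h3 := (mt_mem hx hy hc hδ hs').1
        exact one_div_le_one_div_of_le (by linarith [hs'.1]) (by linarith)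
      linarith
  · intro p hp
    refine ⟨mt x y c δ p, mt_mem hx hy hc hδ hp, ?_, ?_⟩
    · have h1 := mt_le hx hy hc hδ hp
      have h2 : 0 ≤ (x / y + x * δ / (c * y)) * p := mul_nonneg (by positivity) hp.1
      linarith
    · simp only [h, mt_mt hx hy hc hδ hp]; ring
  · intro q hq
    refine ⟨mt y x δ c q, mt_mem hy hx hδ hc hq, ?_, ?_⟩
    · have h1 := mt_le hy hx hδ hc hq
      have h2 : 0 ≤ (y / x + y * c / (δ * x)) * q := mul_nonneg (by positivity) hq.1
      linarith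
    · simp only [h]; ring
  · intro t ht
    simp only [h, mt_curve (y := x) hy hδ hc ht]; ring

end mt

theorem exists_pair {x y c δ : ℝ} (hx : 0 ≤ x) (hy : 0 ≤ y) (hc : 0 < c) (hδ : 0 < δ) :
    ∃ f h K, IsPair x y c δ f h K := by
  rcases hx.eq_or_lt with h | hx'
  · subst h; exact exists_pair_zero hy hc hδ
  rcases hy.eq_or_lt with h | hy'
  · subst h
    obtain ⟨f, h, K, H⟩ := exists_pair_zero hx hδ hc
    exact ⟨h, f, K, H.symm⟩
  exact exists_pair_pos hx' hy' hc hδ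

end Crest.Agent.R341
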