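import Crest.Agent.R341.Ens

/-!
Tensor powers of the amplitude-damping channel.
-/

set_option autoImplicit false
set_option linter.unusedSectionVars false

namespace Crest.Agent.R341

open Set Matrix Crest.Agent.Lib.QEnt Crest.Quantum Crest.MathPhysics.AmpDamp
open scoped ComplexOrder Kronecker

theorem vnEntropy_submatrix {m n : Type*} [Fintype m] [Fintype n] [DecidableEq m] [DecidableEq n]
    (φ : m ≃ n) (A : Matrix n n ℂ) : vnEntropy (A.submatrix φ φ) = vnEntropy A := by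
  by_cases hA : A.IsHermitian
  · rw [vnEntropy_eq hA, vnEntropy_eq (hA.submatrix φ), N_submatrix]
  · have h2 : ¬ (A.submatrix φ φ).IsHermitian := by rwa [isHermitian_submatrix_equiv]
    unfold vnEntropy
    rw [dif_neg hA, dif_neg h2]

theorem density_submatrix {m n : Type*} [Fintype m] [Fintype n] (φ : m ≃ n) {A : Matrix n n ℂ}
    (hA : IsDensity A) : IsDensity (A.submatrix φ φ) := by
  refine ⟨hA.1.submatrix φ, ?_⟩
  rw [← hA.2]
  exact φ.sum_comp (fun i => A i i)

/-- Kraus operators. -/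
noncomputable def kraus (γ ν : ℝ) (k : Bool × Bool) (s s' : Bool) : ℝ :=
  match k, s, s' with
  | (false, false), false, false => Real.sqrt (1 - ν)
  | (false, false), true, true => Real.sqrt (1 - ν) * Real.sqrt (1 - γ)
  | (false, true), false, true => Real.sqrt (1 - ν) * Real.sqrt γ
  | (true, false), false, false => Real.sqrt ν * Real.sqrt (1 - γ)
  | (true, false), true, true => Real.sqrt ν
  | (true, true), true, false => Real.sqrt ν * Real.sqrt γ
  | _, _, _ => 0

theorem coeff_eq_kraus {γ ν : ℝ} (hγ : γ ∈ Icc (0 : ℝ) 1) (hν : ν ∈ Icc (0 : ℝ) 1)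
    (s t s' t' : Bool) : qubitCoeff (gadMap γ ν) s t s' t' =
      ∑ k : Bool × Bool, (kraus γ ν k s s' : ℂ) * (kraus γ ν k t t' : ℂ) := by
  have h1 := Real.mul_self_sqrt hγ.1
  have h2 := Real.mul_self_sqrt hν.1
  have h3 := Real.mul_self_sqrt (show 0 ≤ 1 - γ by linarith [hγ.2])
  have h4 := Real.mul_self_sqrt (show 0 ≤ 1 - ν by linarith [hν.2])
  have key : ∀ x : ℝ, x = ∑ k : Bool × Bool, kraus γ ν k s s' * kraus γ ν k t t' →
      (x : ℂ) = ∑ k : Bool × Bool, (kraus γ ν k s s' : ℂ) * (kraus γ ν k t t' : ℂ) := by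
    intro x hx; rw [hx]; push_cast; rfl
  cases s <;> cases t <;> cases s' <;> cases t' <;>
    simp only [qubitCoeff, gadMap, Matrix.of_apply, Matrix.single_apply, and_self, if_true,
      Bool.false_eq_true, Bool.true_eq_false, and_false, false_and, if_false, mul_one, mul_zero,
      add_zero, zero_add] <;>
    (apply key; simp only [Fintype.sum_prod_type, Fintype.sum_bool, kraus]; grind)

theorem sum_coeff (γ ν : ℝ) (s' t' : Bool) :
    ∑ s, qubitCoeff (gadMap γ ν) s s s' t' = if s' = t' then 1 else 0 := by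
  cases s' <;> cases t' <;> simp [qubitCoeff, gadMap]
  ring

theorem qubitPower_isChannel {γ ν : ℝ} (hγ : γ ∈ Icc (0 : ℝ) 1) (hν : ν ∈ Icc (0 : ℝ) 1) (n : ℕ) :
    IsChannel (qubitPower n (gadMap γ ν)) := by
  refine ⟨⟨fun A B => ?_, fun c A => ?_⟩, fun k M hM => ?_, fun M => ?_⟩
  · ext σ τ
    simp [qubitPower, mul_add, Finset.sum_add_distrib]
  · ext σ τ
    simp only [qubitPower, Matrix.of_apply, Matrix.smul_apply, smul_eq_mul, Finset.mul_sum]
    exact Finset.sum_congr rfl fun _ _ => Finset.sum_congr rfl fun _ _ => by ring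
  · let Kb : (Fin n → Bool × Bool) → Matrix (Fin k × (Fin n → Bool)) (Fin k × (Fin n → Bool)) ℂ :=
      fun κ => Matrix.of fun p q =>
        if p.1 = q.1 then ∏ i, (kraus γ ν (κ i) (p.2 i) (q.2 i) : ℂ) else 0
    have : blockwise (qubitPower n (gadMap γ ν)) M = ∑ κ, Kb κ * M * (Kb κ)ᴴ := by
      ext ⟨j, σ⟩ ⟨l, τ⟩
      simp only [blockwise, block, qubitPower, Matrix.of_apply, coeff_eq_kraus hγ hν,
        Matrix.sum_apply, Matrix.mul_apply, conjTranspose_apply, Kb, Fintype.sum_prod_type (α₁ := Fin k),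
        ite_mul, zero_mul, Finset.sum_ite_irrel, Finset.sum_const_zero, Finset.sum_ite_eq,
        Finset.mem_univ, if_true, apply_ite star, star_zero, mul_ite, mul_zero, star_prod,
        Complex.star_def, Complex.conj_ofReal]
      simp only [Finset.prod_univ_sum, Fintype.piFinset_univ, Finset.sum_mul]
      rw [Finset.sum_comm]
      simp_rw [Finset.sum_comm (γ := Fin n → Bool × Bool)]
      refine Finset.sum_congr rfl fun τ' _ => Finset.sum_congr rfl fun σ' _ =>
        Finset.sum_congr rfl fun κ _ => ?_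
      rw [Finset.prod_mul_distrib]
      ring
    rw [this]
    exact posSemidef_sum _ fun κ _ => hM.mul_mul_conjTranspose_same _
  · simp only [Matrix.trace, Matrix.diag, qubitPower, Matrix.of_apply]
    rw [Finset.sum_comm]
    refine Finset.sum_congr rfl fun σ' _ => ?_
    rw [Finset.sum_comm]
    have : ∀ τ' : Fin n → Bool, ∑ σ : Fin n → Bool,
        (∏ i, qubitCoeff (gadMap γ ν) (σ i) (σ i) (σ' i) (τ' i)) * M σ' τ' =
        if σ' = τ' then M σ' τ' else 0 := by
      intro τ'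
      rw [← Finset.sum_mul, ← Fintype.piFinset_univ,
        ← Finset.prod_univ_sum (fun _ => Finset.univ)
          (fun i s => qubitCoeff (gadMap γ ν) s s (σ' i) (τ' i))]
      simp only [sum_coeff, Finset.prod_ite_zero, Finset.mem_univ, forall_const,
        Finset.prod_const_one, ← funext_iff]
      split_ifs <;> simp
    simp [this]

/-- Splitting off the first qubit. -/
def consE (n : ℕ) : Bool × (Fin n → Bool) ≃ (Fin (n + 1) → Bool) :=
  Fin.consEquiv (fun _ => Bool)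

theorem qubitPower_succ (n : ℕ) (Φ : Matrix Bool Bool ℂ → Matrix Bool Bool ℂ)
    (M : Matrix (Fin (n + 1) → Bool) (Fin (n + 1) → Bool) ℂ) :
    (qubitPower (n + 1) Φ M).submatrix (consE n) (consE n) =
      qubitTensor Φ (qubitPower n Φ) (M.submatrix (consE n) (consE n)) := by
  ext ⟨s, σ⟩ ⟨t, τ⟩
  simp only [qubitPower, qubitTensor, block, Matrix.of_apply, submatrix_apply]
  rw [← (consE n).sum_comp, Fintype.sum_prod_type]
  refine Finset.sum_congr rfl fun s' _ => ?_
  simp_rw [← (consE n).sum_comp, Fintype.sum_prod_type]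
  rw [Finset.sum_comm]
  refine Finset.sum_congr rfl fun t' _ => ?_
  rw [Finset.mul_sum]
  refine Finset.sum_congr rfl fun σ' _ => ?_
  rw [Finset.mul_sum]
  refine Finset.sum_congr rfl fun τ' _ => ?_
  rw [Fin.prod_univ_succ]
  simp [consE, Fin.consEquiv, mul_assoc]

theorem holevo_succ (n : ℕ) (Φ : Matrix Bool Bool ℂ → Matrix Bool Bool ℂ) {m : ℕ} (q : Fin m → ℝ)
    (ρ : Fin m → Matrix (Fin (n + 1) → Bool) (Fin (n + 1) → Bool) ℂ) :
    holevoInfo (qubitPower (n + 1) Φ) q ρ =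
      holevoInfo (qubitTensor Φ (qubitPower n Φ)) q
        (fun a => (ρ a).submatrix (consE n) (consE n)) := by
  unfold holevoInfo
  simp only [← qubitPower_succ, vnEntropy_submatrix]
  rw [← vnEntropy_submatrix (consE n)]
  congr 2
  ext i j
  simp [Matrix.sum_apply]

theorem vnEntropy_unique {ι : Type*} [Fintype ι] [DecidableEq ι] [Unique ι] {A : Matrix ι ι ℂ}
    (hA : A.IsHermitian) (h1 : A.trace = 1) : vnEntropy A = 0 := by
  obtain ⟨U, l, h⟩ := exists_isDiag hA
  have := h.trace_re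
  rw [h1, Complex.one_re, Fintype.sum_unique] at this
  rw [vnEntropy_eq hA, h.N, Fintype.sum_unique, ← this]
  simp

theorem holevo_zero {γ ν : ℝ} (hγ : γ ∈ Icc (0 : ℝ) 1) (hν : ν ∈ Icc (0 : ℝ) 1) {m : ℕ}
    {q : Fin m → ℝ} {ρ : Fin m → Matrix (Fin 0 → Bool) (Fin 0 → Bool) ℂ} (hE : IsEnsemble q ρ) :
    holevoInfo (qubitPower 0 (gadMap γ ν)) q ρ = 0 := by
  have hc := qubitPower_isChannel hγ hν 0
  have hd := fun a => chan_density hc (hE.2.2 a)
  unfold holevoInfo
  rw [vnEntropy_unique (isHermitian_avg _ fun a => (hd a).1.isHermitian)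
    (trace_avg hE.2.1 fun a => (hd a).2)]
  simp [fun a => vnEntropy_unique (hd a).1.isHermitian (hd a).2]

theorem power_upper {γ ν : ℝ} (hγ : γ ∈ Icc (0 : ℝ) 1) (hν : ν ∈ Icc (0 : ℝ) 1) (n : ℕ) :
    ∀ (m : ℕ) (q : Fin m → ℝ) (ρ : Fin m → Matrix (Fin n → Bool) (Fin n → Bool) ℂ),
      IsEnsemble q ρ → ∃ p ∈ Set.Icc (0 : ℝ) 1,
        holevoInfo (qubitPower n (gadMap γ ν)) q ρ ≤ n * gadRate γ ν p := by
  induction n with
  | zero =>
    intro m q ρ hE
    exact ⟨0, ⟨le_rfl, zero_le_one⟩, by rw [holevo_zero hγ hν hE]; simp⟩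
  | succ n ih =>
    intro m q ρ hE
    rw [holevo_succ]
    obtain ⟨p, hp, m₂, q₂, ρ₂, hE₂, h⟩ := holevo_upper hγ hν (qubitPower_isChannel hγ hν n)
      (q := q) (ρ := fun a => (ρ a).submatrix (consE n) (consE n))
      ⟨hE.1, hE.2.1, fun a => density_submatrix _ (hE.2.2 a)⟩
    obtain ⟨p', hp', h'⟩ := ih m₂ q₂ ρ₂ hE₂
    have hn : (0 : ℝ) ≤ n := Nat.cast_nonneg n
    rcases le_total (gadRate γ ν p) (gadRate γ ν p') with hle | hle
    · exact ⟨p', hp', by push_cast; linarith⟩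
    · exact ⟨p, hp, by push_cast; nlinarith⟩

theorem power_lower {γ ν : ℝ} (hγ : γ ∈ Icc (0 : ℝ) 1) (hν : ν ∈ Icc (0 : ℝ) 1) {p : ℝ}
    (hp : p ∈ Set.Icc (0 : ℝ) 1) (n : ℕ) :
    ∃ (m : ℕ) (q : Fin m → ℝ) (ρ : Fin m → Matrix (Fin n → Bool) (Fin n → Bool) ℂ),
      IsEnsemble q ρ ∧ n * gadRate γ ν p ≤ holevoInfo (qubitPower n (gadMap γ ν)) q ρ := by
  induction n with
  | zero =>
    have hE : IsEnsemble (fun _ : Fin 1 => (1 : ℝ))
        (fun _ => (1 : Matrix (Fin 0 → Bool) (Fin 0 → Bool) ℂ)) :=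
      ⟨fun _ => zero_le_one, by simp, fun _ => ⟨PosSemidef.one, by simp⟩⟩
    exact ⟨1, _, _, hE, by rw [holevo_zero hγ hν hE]; simp⟩
  | succ n ih =>
    obtain ⟨m₂, q₂, ρ₂, hE₂, h₂⟩ := ih
    obtain ⟨m₁, q₁, ρ₁, hE₁, h₁⟩ := exists_ens_rate hγ hν hp
    obtain ⟨m, q, ρ, hE, h⟩ := holevo_product γ ν (qubitPower_isChannel hγ hν n) hE₁ hE₂
    refine ⟨m, q, fun a => (ρ a).submatrix (consE n).symm (consE n).symm,
      ⟨hE.1, hE.2.1, fun a => density_submatrix _ (hE.2.2 a)⟩, ?_⟩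
    rw [holevo_succ]
    simp only [submatrix_submatrix, Equiv.symm_comp_self, submatrix_id_id]
    rw [h, h₁]
    push_cast
    linarith

end Crest.Agent.R341
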