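import Crest.Agent.R341.Pot

/-!
One-variable integral estimates for a potential.
-/

set_option autoImplicit false

namespace Crest.Agent.R341

open Set MeasureTheory intervalIntegral

/-- Indicator of `t < h`. -/
noncomputable def ind (h t : ℝ) : ℝ := if t < h then 1 else 0

theorem ind_antitone (h : ℝ) : Antitone (ind h) := by
  intro s t hst
  unfold ind
  split_ifs with h1 h2 h2
  · exact le_rfl
  · exact absurd (hst.trans_lt h1) h2
  · exact zero_le_one
  · exact le_rfl

theorem ind_int (h a b : ℝ) : IntervalIntegrable (ind h) volume a b :=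
  (ind_antitone h).intervalIntegrable

theorem int_sum {ι : Type*} (s : Finset ι) {f : ι → ℝ → ℝ} {a b : ℝ}
    (h : ∀ i ∈ s, IntervalIntegrable (f i) volume a b) :
    IntervalIntegrable (fun t => ∑ i ∈ s, f i t) volume a b := by
  have := IntervalIntegrable.sum s h
  rwa [show (∑ i ∈ s, f i) = fun t => ∑ i ∈ s, f i t from by ext t; simp] at this

theorem integral_const_Ioo {f : ℝ → ℝ} {a b c : ℝ} (hab : a ≤ b) (hf : ∀ t ∈ Ioo a b, f t = c) :
    ∫ t in a..b, f t = (b - a) * c := by
  rw [integral_of_le hab, integral_Ioc_eq_integral_Ioo, setIntegral_congr_fun measurableSet_Ioo hf,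
    ← integral_Ioc_eq_integral_Ioo, ← integral_of_le hab]
  simp

theorem ind_of_lt {h t : ℝ} (H : t < h) : ind h t = 1 := if_pos H

theorem ind_of_le {h t : ℝ} (H : h ≤ t) : ind h t = 0 := if_neg (not_lt.2 H)

theorem integral_ind (h : ℝ) {T : ℝ} (hT : 0 ≤ T) :
    ∫ t in (0 : ℝ)..T, ind h t = max h 0 - max (h - T) 0 := by
  rcases le_total h 0 with h0 | h0
  · rw [integral_const_Ioo (f := ind h) (c := 0) hT (fun t ht => ind_of_le (by linarith [ht.1])),
      max_eq_right h0, max_eq_right (by linarith)]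
    simp
  rcases le_total h T with h1 | h1
  · rw [← integral_add_adjacent_intervals (ind_int h 0 h) (ind_int h h T),
      integral_const_Ioo (f := ind h) (c := 1) h0 (fun t ht => ind_of_lt ht.2),
      integral_const_Ioo (f := ind h) (c := 0) h1 (fun t ht => ind_of_le (by linarith [ht.1])),
      max_eq_left h0, max_eq_right (by linarith)]
    simp
  · rw [integral_const_Ioo (f := ind h) (c := 1) hT (fun t ht => ind_of_lt (by linarith [ht.2])),
      max_eq_left h0, max_eq_left (by linarith)]
    ring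

section step
variable {g : ℝ → ℝ} {p0 K : ℝ}

/-- Jumps of the step approximation. -/
noncomputable def jump (g : ℝ → ℝ) (η : ℝ) (k : ℕ) : ℝ := g ((k + 1 : ℕ) * η) - g (k * η)

theorem jump_nonneg (hg : Pot g p0 K) {η : ℝ} (hη : 0 ≤ η) (k : ℕ) : 0 ≤ jump g η k := by
  unfold jump
  have : (k : ℝ) * η ≤ ((k + 1 : ℕ) : ℝ) * η := by push_cast; nlinarith
  linarith [hg.mono this]

theorem sum_jump (hg : Pot g p0 K) (η : ℝ) (n : ℕ) :
    ∑ k ∈ Finset.range n, jump g η k = g (n * η) := by
  unfold jump
  rw [Finset.sum_range_sub (fun k : ℕ => g (k * η))]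
  simp [hg.zero 0 le_rfl]

theorem step_le (hg : Pot g p0 K) {η : ℝ} (hη : 0 ≤ η) (n : ℕ) (p : ℝ) :
    ∑ k ∈ Finset.range n, jump g η k * ind p ((k + 1 : ℕ) * η) ≤ g p := by
  have h1 : ∀ k : ℕ, jump g η k * ind p ((k + 1 : ℕ) * η) ≤
      g (min p ((k + 1 : ℕ) * η)) - g (min p (k * η)) := by
    intro k
    have hk : (k : ℝ) * η ≤ ((k + 1 : ℕ) : ℝ) * η := by push_cast; nlinarith
    unfold ind
    split_ifs with h
    · rw [min_eq_right h.le, min_eq_right (hk.trans h.le), mul_one]; exact le_rfl
    · rw [mul_zero, sub_nonneg]; exact hg.mono (min_le_min le_rfl hk)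
  refine (Finset.sum_le_sum fun k _ => h1 k).trans ?_
  rw [Finset.sum_range_sub (fun k : ℕ => g (min p (k * η)))]
  have h2 : g (min p (((0 : ℕ) : ℝ) * η)) = 0 := hg.zero _ (by simp)
  rw [h2, sub_zero]
  exact hg.mono (min_le_left _ _)

theorem le_step (hg : Pot g p0 K) {η : ℝ} (hη : 0 ≤ η) (n : ℕ) (hn : p0 ≤ n * η) (p : ℝ) :
    g p - η ≤ ∑ k ∈ Finset.range n, jump g η k * ind p ((k + 1 : ℕ) * η) := by
  have h1 : ∀ k : ℕ, g (min (p - η) ((k + 1 : ℕ) * η)) - g (min (p - η) (k * η)) ≤
      jump g η k * ind p ((k + 1 : ℕ) * η) := by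
    intro k
    have hk : ((k + 1 : ℕ) : ℝ) * η = k * η + η := by push_cast; ring
    unfold ind
    split_ifs with h
    · rw [min_eq_right (show (k : ℝ) * η ≤ p - η by linarith), mul_one]
      unfold jump
      linarith [hg.mono (min_le_right (p - η) (((k + 1 : ℕ) : ℝ) * η))]
    · push Not at h
      rw [min_eq_left (show p - η ≤ (k : ℝ) * η by linarith),
        min_eq_left (show p - η ≤ ((k + 1 : ℕ) : ℝ) * η by linarith)]
      simp
  refine le_trans ?_ (Finset.sum_le_sum fun k _ => h1 k)
  rw [Finset.sum_range_sub (fun k : ℕ => g (min (p - η) (k * η)))]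
  have h2 : g (min (p - η) (((0 : ℕ) : ℝ) * η)) = 0 := hg.zero _ (by simp)
  rw [h2, sub_zero]
  have h3 : g (p - η) ≤ g (min (p - η) (n * η)) := by
    rcases le_total (p - η) (n * η) with h | h
    · rw [min_eq_left h]
    · rw [min_eq_right h, hg.top _ hn, hg.top _ (hn.trans h)]
  have h4 := hg.lip p (p - η) (by linarith)
  linarith

end step

section profile
variable {g : ℝ → ℝ} {x c K : ℝ}

/-- The potential along the hyperbola `s ↦ x / s`, frozen for `s ≤ c`. -/
noncomputable def prof (g : ℝ → ℝ) (x c s : ℝ) : ℝ := g (x / max s c)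

theorem prof_antitone (hg : Pot g (x / c) K) (hx : 0 ≤ x) (hc : 0 < c) :
    Antitone (prof g x c) := by
  intro s t hst
  unfold prof
  exact hg.mono (div_le_div_of_nonneg_left hx (hc.trans_le (le_max_right _ _))
    (max_le_max hst le_rfl))

theorem prof_scale (hg : Pot g (x / c) K) (hx : 0 < x) (hc : 0 < c) {r t : ℝ} (hr : 0 < r)
    (ht : 0 < t) : prof g x c (t * (x / r)) = g (r / t) := by
  unfold prof
  rcases le_total (t * (x / r)) c with h | h
  · rw [max_eq_right h]
    refine (hg.top _ ?_).symm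
    rw [div_le_div_iff₀ hc ht]
    rw [← mul_div_assoc, div_le_iff₀ hr] at h
    linarith
  · rw [max_eq_left h]
    congr 1
    field_simp

theorem step_integral_ge (hg : Pot g (x / c) K) (hK : 0 ≤ K) (hx : 0 < x) (hc : 0 < c) {η : ℝ}
    (hη : 0 < η) (n : ℕ) (hn : x / c ≤ n * η) {T : ℝ} (hT : c ≤ T) {r : ℝ} (hr : 0 ≤ r)
    (hrx : r ≤ x) :
    r / x * (∫ s in (0 : ℝ)..T, prof g x c s)
        + (1 - K * x / T) * (r * Real.log x - r * Real.log r) - η * T ≤
      ∑ k ∈ Finset.range n, jump g η k *
        (r / ((k + 1 : ℕ) * η) - max (r / ((k + 1 : ℕ) * η) - T) 0) := by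
  have hT0 : 0 < T := hc.trans_le hT
  have hτ : ∀ k : ℕ, 0 < ((k + 1 : ℕ) : ℝ) * η := fun k => by positivity
  rcases hr.eq_or_lt with h0 | hr0
  · subst h0
    have : ∀ k ∈ Finset.range n, jump g η k *
        (0 / (((k + 1 : ℕ) : ℝ) * η) - max (0 / (((k + 1 : ℕ) : ℝ) * η) - T) 0) = 0 := by
      intro k _
      rw [zero_div, max_eq_right (by linarith)]; simp
    rw [Finset.sum_eq_zero this]
    simp only [zero_div, zero_mul, sub_self, mul_zero, add_zero, zero_sub, neg_nonpos]
    positivity
  have hw := prof_antitone hg hx.le hc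
  have hwi : ∀ a b, IntervalIntegrable (prof g x c) volume a b := fun a b => hw.intervalIntegrable
  have hq : 1 ≤ x / r := by rw [le_div_iff₀ hr0]; linarith
  have e1 : ∑ k ∈ Finset.range n, jump g η k *
        (r / ((k + 1 : ℕ) * η) - max (r / ((k + 1 : ℕ) * η) - T) 0) =
      ∫ t in (0 : ℝ)..T, ∑ k ∈ Finset.range n, jump g η k * ind (r / ((k + 1 : ℕ) * η)) t := by
    rw [integral_finsetSum (fun k _ => (ind_int _ _ _).const_mul _)]
    refine Finset.sum_congr rfl fun k _ => ?_
    rw [intervalIntegral.integral_const_mul, integral_ind _ hT0.le,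
      max_eq_left (div_nonneg hr (hτ k).le)]
  have hwi2 : IntervalIntegrable (fun t => prof g x c (t * (x / r))) volume 0 T := by
    refine Antitone.intervalIntegrable fun s t hst => hw ?_
    exact mul_le_mul_of_nonneg_right hst (by positivity)
  have e2 : ∫ t in (0 : ℝ)..T, (prof g x c (t * (x / r)) - η) ≤
      ∫ t in (0 : ℝ)..T, ∑ k ∈ Finset.range n, jump g η k * ind (r / ((k + 1 : ℕ) * η)) t := by
    refine integral_mono_on_of_le_Ioo hT0.le (hwi2.sub intervalIntegrable_const) ?_ ?_
    · exact int_sum _ (fun k _ => (ind_int _ _ _).const_mul _)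
    · intro t ht
      rw [prof_scale hg hx hc hr0 ht.1]
      refine (le_step hg hη.le n hn (r / t)).trans (le_of_eq ?_)
      refine Finset.sum_congr rfl fun k _ => ?_
      congr 1
      unfold ind
      have : ((k + 1 : ℕ) : ℝ) * η < r / t ↔ t < r / (((k + 1 : ℕ) : ℝ) * η) := by
        rw [lt_div_iff₀ ht.1, lt_div_iff₀ (hτ k), mul_comm]
      simp only [this]
  rw [integral_sub hwi2 intervalIntegrable_const, intervalIntegral.integral_const,
    integral_comp_mul_right _ (by positivity), zero_mul,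
    ← integral_add_adjacent_intervals (hwi 0 T) (hwi T _)] at e2
  have hTT : T ≤ T * (x / r) := by nlinarith
  have e3 : ∫ s in T..T * (x / r), (1 - K * x / T) * x * s⁻¹ ≤
      ∫ s in T..T * (x / r), prof g x c s := by
    refine integral_mono_on hTT ?_ (hwi _ _) fun s hs => ?_
    · refine ContinuousOn.intervalIntegrable ?_
      refine continuousOn_const.mul (continuousOn_id.inv₀ fun s hs => ?_)
      rw [uIcc_of_le hTT] at hs
      exact (hT0.trans_le hs.1).ne'
    · have hs0 : 0 < s := hT0.trans_le hs.1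
      unfold prof
      rw [max_eq_left (hT.trans hs.1)]
      refine le_trans ?_ (hg.low _ (by positivity)
        (div_le_div_of_nonneg_left hx.le hc (hT.trans hs.1)))
      have h1 : K * x / s ≤ K * x / T := div_le_div_of_nonneg_left (by positivity) hT0 hs.1
      have h2 : x / s - K * (x / s) ^ 2 = (1 - K * x / s) * x * s⁻¹ := by field_simp
      rw [h2]
      gcongr
  rw [intervalIntegral.integral_const_mul, integral_inv_of_pos hT0 (by positivity),
    mul_div_cancel_left₀ _ hT0.ne', Real.log_div hx.ne' hr0.ne'] at e3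
  rw [e1]
  refine le_trans ?_ e2
  simp only [smul_eq_mul, inv_div, sub_zero]
  have e4 := mul_le_mul_of_nonneg_left e3 (show 0 ≤ r / x by positivity)
  have e5 : r / x * ((1 - K * x / T) * x * (Real.log x - Real.log r)) =
      (1 - K * x / T) * (r * Real.log x - r * Real.log r) := by field_simp
  rw [e5] at e4
  linarith

theorem ref_integral_le (hg : Pot g (x / c) K) (hx : 0 ≤ x) (hc : 0 < c) {T : ℝ} (hT : c ≤ T) :
    ∫ t in (0 : ℝ)..T, g (x / (t + c)) ≤
      (∫ s in (0 : ℝ)..T, prof g x c s) - c * g (x / c) + c * x / T := by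
  have hT0 : 0 < T := hc.trans_le hT
  have hw := prof_antitone hg hx hc
  have hwi : ∀ a b, IntervalIntegrable (prof g x c) volume a b := fun a b => hw.intervalIntegrable
  have e1 : ∫ t in (0 : ℝ)..T, g (x / (t + c)) = ∫ t in (0 : ℝ)..T, prof g x c (t + c) := by
    refine integral_congr fun t ht => ?_
    rw [uIcc_of_le hT0.le] at ht
    simp only [prof]
    rw [max_eq_left (by linarith [ht.1])]
  rw [e1, integral_comp_add_right, zero_add, ← integral_add_adjacent_intervals (hwi c T) (hwi T _),
    ← integral_add_adjacent_intervals (hwi 0 c) (hwi c T)]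
  have e2 : ∫ s in (0 : ℝ)..c, prof g x c s = (c - 0) * g (x / c) :=
    integral_const_Ioo hc.le fun t ht => by simp only [prof]; rw [max_eq_right ht.2.le]
  have e3 : ∫ s in T..T + c, prof g x c s ≤ ∫ s in T..T + c, x / T := by
    refine integral_mono_on (by linarith) (hwi _ _) intervalIntegrable_const fun s hs => ?_
    unfold prof
    rw [max_eq_left (hT.trans hs.1)]
    have hs0 : 0 < s := hT0.trans_le hs.1
    have h1 := hg.lip (x / s) 0 (by positivity)
    rw [hg.zero 0 le_rfl] at h1
    have h2 : x / s ≤ x / T := div_le_div_of_nonneg_left hx hT0 hs.1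
    linarith
  rw [intervalIntegral.integral_const] at e3
  simp only [smul_eq_mul, add_sub_cancel_left] at e3
  rw [e2, mul_div_assoc]
  linarith

theorem ref_int (hg : Pot g (x / c) K) (hx : 0 ≤ x) (hc : 0 < c) {T : ℝ} (hT : 0 ≤ T) :
    IntervalIntegrable (fun t => g (x / (t + c))) volume 0 T := by
  refine AntitoneOn.intervalIntegrable fun s hs t _ hst => hg.mono ?_
  rw [uIcc_of_le hT] at hs
  exact div_le_div_of_nonneg_left hx (by linarith [hs.1]) (by linarith)

end profile

/-- `u log u - u`. -/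
noncomputable def Lam (u : ℝ) : ℝ := u * Real.log u - u

theorem log_add_int (u a b : ℝ) : IntervalIntegrable (fun t => Real.log (t + u)) volume a b := by
  have := (intervalIntegral.intervalIntegrable_log' (a := a + u) (b := b + u)).comp_add_right u
  simpa using this

theorem integral_log_add (u T : ℝ) :
    ∫ t in (0 : ℝ)..T, Real.log (t + u) = Lam (T + u) - Lam u := by
  rw [integral_comp_add_right (fun t => Real.log t), integral_log]
  simp only [Lam, zero_add]; ring

theorem Lam_add_ge {T u : ℝ} (hT : 0 < T) (hu : 0 ≤ u) :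
    Lam T + u * Real.log T ≤ Lam (T + u) := by
  unfold Lam
  have h1 : Real.log (T / (T + u)) ≤ T / (T + u) - 1 := Real.log_le_sub_one_of_pos (by positivity)
  rw [Real.log_div hT.ne' (by positivity)] at h1
  have h2 := mul_le_mul_of_nonneg_left h1 (show 0 ≤ T + u by positivity)
  have h3 : (T + u) * (T / (T + u) - 1) = -u := by field_simp; ring
  rw [h3] at h2
  linarith

theorem Lam_add_le {T u : ℝ} (hT : 0 < T) (hu : 0 ≤ u) :
    Lam (T + u) ≤ Lam T + u * Real.log T + u ^ 2 / T := by
  unfold Lam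
  have h1 : Real.log ((T + u) / T) ≤ (T + u) / T - 1 := Real.log_le_sub_one_of_pos (by positivity)
  rw [Real.log_div (by positivity) hT.ne'] at h1
  have h2 := mul_le_mul_of_nonneg_left h1 (show 0 ≤ T + u by positivity)
  have h3 : (T + u) * ((T + u) / T - 1) = u + u ^ 2 / T := by field_simp; ring
  rw [h3] at h2
  linarith

theorem le_of_forall_add_div {A B Cst T0 : ℝ} (h : ∀ T, T0 ≤ T → 0 < T → A ≤ B + Cst / T) :
    A ≤ B := by
  refine le_of_forall_pos_le_add fun ε hε => ?_
  have hT : 0 < max T0 (|Cst| / ε + 1) := lt_max_of_lt_right (by positivity)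
  refine (h _ (le_max_left _ _) hT).trans ?_
  have : Cst / max T0 (|Cst| / ε + 1) ≤ ε := by
    rw [div_le_iff₀ hT]
    have h1 : |Cst| / ε + 1 ≤ max T0 (|Cst| / ε + 1) := le_max_right _ _
    have h2 : ε * (|Cst| / ε + 1) = |Cst| + ε := by field_simp
    have h3 := mul_le_mul_of_nonneg_left h1 hε.le
    linarith [le_abs_self Cst]
  linarith

end Crest.Agent.R341
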